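import Vale.Agent.P032.H460.Link
import Vale.Agent.P032.H484.HE
import Vale.Agent.P032.S5.H349.Bridge
import Vale.Agent.P032.H98.AntiP

/-!
# P032: the borders at the two ends of an exact arc

`V` a two-pair point with the pairs `{a, b}`, `{c, d}`.

* `typ800` : an exact `ab`-arc of `S(V)` does not join a point with the pair `{a, c}` and a point
  with the pair `{b, d}`.
* `no_pair800` : `V` is not a limit of points of palette `{a, b}` of a circle `S(y)` through `V`.
-/

open Set Filter Topology Metric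

noncomputable section

namespace Vale.Agent.P032.Six

open Vale.Agent.P032.S5.H767

variable {U : Fin 6 → Set ℂ} {T : ℂ → Set (Fin 6)} {V y : ℂ} {a b c d g g' : Fin 6}

/-- the half branches of `S(V)` in the angle coordinate -/
theorem hb_pt800 (V : ℂ) (s τ r : ℝ) : hb V (pt V s) τ r = pt V (s + τ * r * (3 / Real.pi)) := by
  unfold hb
  exact Vale.Agent.P032.S5.H349.pt_rot V s (τ * r)

/-- the two colours of an exact arc of `S(V)` give the sign of a half branch at `V` -/
theorem branch_sign800 (h : Irr U T) {p : ℂ} (hp : Arc T V p {c, d}) (hs : Sd U V p c d)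
    {σ : ℝ} :
    ((∀ᶠ t : ℝ in 𝓝[>] 0, c ∈ T (hb y V σ t)) → ¬ 0 < σ * sg y V p) ∧
      ((∀ᶠ t : ℝ in 𝓝[>] 0, d ∈ T (hb y V σ t)) → ¬ σ * sg y V p < 0) := by
  have hc := h.sd_center hp hs
  refine ⟨fun h1 h2 => ?_, fun h1 h2 => ?_⟩
  · obtain ⟨t, e1, e2, e3⟩ := ((hb_out (z := y) (v := V) (g := p) (τ := σ) hp.1 h2).and
      (((tendsto_hb y V σ).eventually hc).and h1)).exists
    exact e2.1 e1 (h.sub _ e3)
  · obtain ⟨t, e1, e2, e3⟩ := ((hb_in (z := y) (v := V) (g := p) (τ := σ) hp.1 h2).and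
      (((tendsto_hb y V σ).eventually hc).and h1)).exists
    exact e2.2 e1 (h.sub _ e3)

theorem ev_scale800 {δ : ℝ} (hδ : 0 < δ) : ∀ᶠ r : ℝ in 𝓝[>] 0, 0 < r ∧ r * (3 / Real.pi) < δ := by
  have hpi := Real.pi_pos
  filter_upwards [self_mem_nhdsWithin, mem_nhdsWithin_of_mem_nhds (Iio_mem_nhds
    (show (0 : ℝ) < δ * (Real.pi / 3) by positivity))] with r h1 h2
  refine ⟨h1, ?_⟩
  rw [mem_Iio] at h2
  calc r * (3 / Real.pi) < δ * (Real.pi / 3) * (3 / Real.pi) := by
        exact mul_lt_mul_of_pos_right h2 (by positivity)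
    _ = δ := by field_simp

/-- **the two ends of an exact arc are not at the borders `ac` and `bd`** -/
theorem typ800 (h : Irr U T) (hV : DPt T V a b c d) {s t : ℝ} (hst : s < t)
    (hA : ∀ w ∈ Ioo s t, T (pt V w) = {a, b}) (h1 : DPt T (pt V s) a c b g)
    (h2 : DPt T (pt V t) b d a g') : False := by
  have hds := dist_pt V s
  have hdt := dist_pt V t
  have hds' : dist V (pt V s) = 1 := by rw [dist_comm]; exact hds
  have hdt' : dist V (pt V t) = 1 := by rw [dist_comm]; exact hdt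
  -- the arc on the half branches
  have bs : ∀ᶠ r : ℝ in 𝓝[>] 0, T (hb V (pt V s) 1 r) = {a, b} := by
    filter_upwards [ev_scale800 (sub_pos.2 hst)] with r hr
    rw [hb_pt800]
    refine hA _ ⟨?_, ?_⟩
    · have : 0 < r * (3 / Real.pi) := mul_pos hr.1 (by positivity)
      linarith
    · linarith [hr.2]
  have bt : ∀ᶠ r : ℝ in 𝓝[>] 0, T (hb V (pt V t) (-1) r) = {a, b} := by
    filter_upwards [ev_scale800 (sub_pos.2 hst)] with r hr
    rw [hb_pt800]
    refine hA _ ⟨?_, ?_⟩
    · linarith [hr.2]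
    · have : 0 < r * (3 / Real.pi) := mul_pos hr.1 (by positivity)
      linarith
  -- the sides are constant
  have haV : ∀ w ∈ Icc s t, a ∈ T (pt V w) := by
    intro w hw
    have k1 : w ∈ closure (Ioo s t) := by rw [closure_Ioo hst.ne]; exact hw
    have k2 : IsClosed {w : ℝ | a ∈ T (pt V w)} := (h.closed a).preimage (continuous_pt V)
    exact closure_minimal (fun v hv => by
      show a ∈ T (pt V v)
      rw [hA v hv]; simp) k2 k1
  have hop : ∀ i j : Fin 6, IsOpen {w : ℝ | Sd U V (pt V w) i j} := by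
    intro i j
    rw [isOpen_iff_mem_nhds]
    intro w hw
    exact (continuous_pt V).continuousAt.eventually hw.eventually460
  have hconst : ¬ (Sd U V (pt V s) a b ∧ Sd U V (pt V t) b a) ∧
      ¬ (Sd U V (pt V s) b a ∧ Sd U V (pt V t) a b) := by
    have hpre : IsPreconnected (Icc s t) := isPreconnected_Icc
    constructor
    · rintro ⟨k1, k2⟩
      obtain ⟨v, hv, k3, k4⟩ := hpre _ _ (hop a b) (hop b a)
        (fun v _ => h.sides hV (dist_pt V v)) ⟨s, left_mem_Icc.2 hst.le, k1⟩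
        ⟨t, right_mem_Icc.2 hst.le, k2⟩
      exact h.sd_unique (haV v hv) k3 k4
    · rintro ⟨k1, k2⟩
      obtain ⟨v, hv, k3, k4⟩ := hpre _ _ (hop a b) (hop b a)
        (fun v _ => h.sides hV (dist_pt V v)) ⟨t, right_mem_Icc.2 hst.le, k2⟩
        ⟨s, left_mem_Icc.2 hst.le, k1⟩
      exact h.sd_unique (haV v hv) k3 k4
  -- the two links
  obtain ⟨τ1, σ1, hτ1, hσ1, p1, p2, p3, p4, p5⟩ := h.link460 hV h1 hds
  obtain ⟨τ2, σ2, hτ2, hσ2, q1, q2, q3, q4, q5⟩ := h.link460 hV.swap12.swap34 h2 hdt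
  have hτ1' : τ1 = 1 := by
    rcases hτ1 with h3 | h3
    · exact h3
    · exfalso
      subst h3
      rw [neg_neg] at p2
      obtain ⟨r, e1, e2⟩ := (bs.and p2).exists
      have e3 : a ∈ T (hb V (pt V s) 1 r) := by rw [e1]; simp
      rcases e2 e3 with e4 | e4
      · exact hV.ac e4
      · rw [mem_singleton_iff] at e4
        exact h1.ad e4
  have hτ2' : τ2 = -1 := by
    rcases hτ2 with h3 | h3
    · exfalso
      subst h3
      obtain ⟨r, e1, e2⟩ := (bt.and q2).exists
      have e3 : b ∈ T (hb V (pt V t) (-1) r) := by rw [e1]; simp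
      rcases e2 e3 with e4 | e4
      · exact hV.bd e4
      · rw [mem_singleton_iff] at e4
        exact h2.ad e4
    · exact h3
  subst hτ1' hτ2'
  have hσ : σ1 = σ2 := by
    rcases p5 with ⟨e1, e2, -⟩ | ⟨e1, e2, -⟩ <;> rcases q5 with ⟨e3, e4, -⟩ | ⟨e3, e4, -⟩
    · exact (hconst.1 ⟨e2, e4⟩).elim
    · rw [e1, e3]
    · rw [e1, e3, neg_neg]
    · exact (hconst.2 ⟨e2, e4⟩).elim
  subst hσ
  -- a point of an exact `cd`-arc off the two lines
  obtain ⟨p0, hp0⟩ := hV.arc2
  obtain ⟨p, hp, ⟨n1, n2⟩, n3, n4⟩ := H484.arc_generic (y := pt V s) (y' := pt V t) hp0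
  have z1 : sg (pt V s) V p ≠ 0 := sg_ne hds' hp.1 n1 n2
  have z2 : sg (pt V t) V p ≠ 0 := sg_ne hdt' hp.1 n3 n4
  have k1 : ∀ᶠ r : ℝ in 𝓝[>] 0, c ∈ T (hb (pt V s) V σ1 r) := p3.mono fun r hr => by
    rw [hr]; simp
  have k2 : ∀ᶠ r : ℝ in 𝓝[>] 0, d ∈ T (hb (pt V t) V σ1 r) := q3.mono fun r hr => by
    rw [hr]; simp
  have hprod : sg (pt V s) V p * sg (pt V t) V p < 0 := by
    have hσ0 : σ1 ^ 2 = 1 := by rcases hσ1 with h3 | h3 <;> rw [h3] <;> norm_num
    rcases h.sides hV.swap hp.1 with hs | hs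
    · have m1 := (branch_sign800 h hp hs).1 k1
      have m2 := (branch_sign800 h hp hs).2 k2
      rcases hσ1 with h3 | h3 <;> subst h3
      · rw [one_mul] at m1 m2
        exact mul_neg_of_neg_of_pos (lt_of_le_of_ne (not_lt.1 m1) z1)
          (lt_of_le_of_ne (not_lt.1 m2) z2.symm)
      · rw [neg_one_mul] at m1 m2
        exact mul_neg_of_pos_of_neg (lt_of_le_of_ne (by linarith [not_lt.1 m1]) z1.symm)
          (lt_of_le_of_ne (by linarith [not_lt.1 m2]) z2)
    · have hp' : Arc T V p {d, c} := by rw [Set.pair_comm]; exact hp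
      have m1 := (branch_sign800 h hp' hs).2 k1
      have m2 := (branch_sign800 h hp' hs).1 k2
      rcases hσ1 with h3 | h3 <;> subst h3
      · rw [one_mul] at m1 m2
        exact mul_neg_of_pos_of_neg (lt_of_le_of_ne (not_lt.1 m1) z1.symm)
          (lt_of_le_of_ne (not_lt.1 m2) z2)
      · rw [neg_one_mul] at m1 m2
        exact mul_neg_of_neg_of_pos (lt_of_le_of_ne (by linarith [not_lt.1 m1]) z1)
          (lt_of_le_of_ne (by linarith [not_lt.1 m2]) z2.symm)
  -- a zero in between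
  have hcont : ContinuousOn (fun w : ℝ => sg (pt V w) V p) (Icc s t) := by
    have e1 : Continuous fun w : ℝ => V - pt V w := continuous_const.sub (continuous_pt V)
    exact (((Complex.continuous_re.comp e1).mul continuous_const).sub
      ((Complex.continuous_im.comp e1).mul continuous_const)).continuousOn
  obtain ⟨w, hw, hw0⟩ : ∃ w ∈ Icc s t, sg (pt V w) V p = 0 := by
    rcases lt_or_gt_of_ne z1 with h3 | h3
    · have h4 : 0 < sg (pt V t) V p := by
        by_contra h5
        exact absurd hprod (not_lt.2 (mul_nonneg_of_nonpos_of_nonpos h3.le (not_lt.1 h5)))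
      obtain ⟨w, hw, hw'⟩ := intermediate_value_Icc hst.le hcont ⟨h3.le, h4.le⟩
      exact ⟨w, hw, hw'⟩
    · have h4 : sg (pt V t) V p < 0 := by
        by_contra h5
        exact absurd hprod (not_lt.2 (mul_nonneg h3.le (not_lt.1 h5)))
      obtain ⟨w, hw, hw'⟩ := intermediate_value_Icc' hst.le hcont ⟨h4.le, h3.le⟩
      exact ⟨w, hw, hw'⟩
  have hws : s < w := lt_of_le_of_ne hw.1 fun h3 => z1 (h3 ▸ hw0)
  have hwt : w < t := lt_of_le_of_ne hw.2 fun h3 => z2 (h3 ▸ hw0)
  have hwT := hA w ⟨hws, hwt⟩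
  have hpT : T p = {c, d} := hp.mem
  by_cases h3 : p = pt V w
  · rw [← h3, hpT] at hwT
    have : c ∈ ({a, b} : Set (Fin 6)) := by rw [← hwT]; simp
    rcases this with h4 | h4
    · exact hV.ac h4.symm
    · exact hV.bc h4.symm
  by_cases h4 : p + pt V w = 2 * V
  · refine h.anti_clo hV hp.1 (by rw [hpT]; simp) (by rw [hpT]; simp) ?_
    have e1 : 2 * V - p = pt V w := by linear_combination -h4
    rw [e1]
    refine subset_closure ⟨dist_pt V w, ?_⟩
    exact (h.arc_of_eq hV.ab (by rw [hV.pal]; simp) (by rw [hV.pal]; simp) (dist_pt V w) hwT).2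
  · exact sg_ne (by rw [dist_comm]; exact dist_pt V w) hp.1 h3 h4 hw0

/-- **`V` is no limit of `ab`-points of a circle through `V`** -/
theorem no_pair800 (h : Irr U T) (hV : DPt T V a b c d) (hy : dist y V = 1) :
    V ∉ closure {x | dist x y = 1 ∧ T x = {a, b}} := by
  intro hcl
  have hy' : dist V y = 1 := by rw [dist_comm]; exact hy
  have key : ∀ {p r : Fin 6}, (p = a ∨ p = b) → (r = c ∨ r = d) → ∀ X : Set (Fin 6),
      X ⊆ {p, r} → X ≠ {a, b} := by
    intro p r hp hr X hX hcon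
    have ha : a ∈ X := by rw [hcon]; simp
    have hb' : b ∈ X := by rw [hcon]; simp
    have k1 := hX ha
    have k2 := hX hb'
    simp only [mem_insert_iff, mem_singleton_iff] at k1 k2
    rcases hp with rfl | rfl <;> rcases hr with rfl | rfl
    · rcases k2 with k2 | k2
      · exact hV.ab k2.symm
      · exact hV.bc k2
    · rcases k2 with k2 | k2
      · exact hV.ab k2.symm
      · exact hV.bd k2
    · rcases k1 with k1 | k1
      · exact hV.ab k1
      · exact hV.ac k1
    · rcases k1 with k1 | k1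
      · exact hV.ab k1
      · exact hV.ad k1
  have h5 : ∀ᶠ w in 𝓝 V, dist w y = 1 → w ≠ V → T w ≠ {a, b} := by
    rcases h.germ_branch hV hy' with hG | hG | hG | hG
    · exact hb_sphere460 (P := fun w => T w ≠ {a, b}) hy'
        (hG.1.mono fun t ht => key (Or.inl rfl) (Or.inl rfl) _ ht)
        (hG.2.mono fun t ht => key (Or.inr rfl) (Or.inr rfl) _ ht)
    · exact hb_sphere460 (P := fun w => T w ≠ {a, b}) hy'
        (hG.1.mono fun t ht => key (Or.inl rfl) (Or.inr rfl) _ ht)
        (hG.2.mono fun t ht => key (Or.inr rfl) (Or.inl rfl) _ ht)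
    · exact hb_sphere460 (P := fun w => T w ≠ {a, b}) hy'
        (hG.1.mono fun t ht => key (Or.inr rfl) (Or.inl rfl) _ ht)
        (hG.2.mono fun t ht => key (Or.inl rfl) (Or.inr rfl) _ ht)
    · exact hb_sphere460 (P := fun w => T w ≠ {a, b}) hy'
        (hG.1.mono fun t ht => key (Or.inr rfl) (Or.inr rfl) _ ht)
        (hG.2.mono fun t ht => key (Or.inl rfl) (Or.inl rfl) _ ht)
  obtain ⟨w, ⟨hw1, hw2⟩, hw3⟩ := ((mem_closure_iff_frequently.1 hcl).and_eventually h5).exists
  refine hw3 hw1 (fun hcon => ?_) hw2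
  subst hcon
  rw [hV.pal] at hw2
  have : c ∈ ({a, b} : Set (Fin 6)) := by rw [← hw2]; simp
  rcases this with k | k
  · exact hV.ac k.symm
  · exact hV.bc k.symm

end Vale.Agent.P032.Six
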