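import Vale.Agent.P032.H800.XR
import Vale.Agent.P032.H800.Typ
import Vale.Agent.P032.H169.OneArc
import Vale.Agent.P032.H416.Props

/-!
# P032, the degree theorem without complementary palettes: the links

World `XC U T` : `DF U T`, `NoComp T`, and no point of order at least four has three points of order
at least four on its unit circle.  Rows:
* `RowMC` : one of the two pairs of a two-pair point has no plain ends;
* `RowHC` : a limit of exact points of a pair without plain ends is not harmless.

`XP U T` : the two rows as fields; `XP.rw` : the input of the generic glue; `qiw_degC` : `QIW T`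
without invisible points.
-/

open Set Filter Topology Metric

noncomputable section

namespace Vale.Agent.P032.H800

open Vale.Agent.P032.Six Vale.Agent.P032.S5.H767 Vale.Agent.P032.H961 Vale.Agent.P032.H383

variable {U : Fin 6 → Set ℂ} {T : ℂ → Set (Fin 6)} {V y : ℂ} {a b c d g : Fin 6}

/-- the text of `NoThree` -/
def N3 (T : ℂ → Set (Fin 6)) : Prop :=
  ∀ z y1 y2 y3, 4 ≤ (T z).ncard → dist y1 z = 1 → dist y2 z = 1 → dist y3 z = 1 →
    4 ≤ (T y1).ncard → 4 ≤ (T y2).ncard → 4 ≤ (T y3).ncard → y1 = y2 ∨ y1 = y3 ∨ y2 = y3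

/-- the world of the degree theorem without complementary palettes -/
structure XC (U : Fin 6 → Set ℂ) (T : ℂ → Set (Fin 6)) : Prop where
  df : DF U T
  nc : NoComp T
  n3 : N3 T

/-- row M: one of the two pairs has no plain ends -/
def RowMC : Prop := ∀ (U : Fin 6 → Set ℂ) (T : ℂ → Set (Fin 6)), XC U T →
  ∀ V a b c d, DPt T V a b c d → Pf T V a b ∨ Pf T V c d

/-- row H: an end of an arc of a pair without plain ends is not harmless -/
def RowHC : Prop := ∀ (U : Fin 6 → Set ℂ) (T : ℂ → Set (Fin 6)), DF U T → N3 T →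
  ∀ V a b c d, DPt T V a b c d → Pf T V a b → ∀ y ∈ closure (XA T V a b), ∀ A, ¬ Six.Harm T y A

/-- the rows at all the two-pair points -/
structure XP (U : Fin 6 → Set ℂ) (T : ℂ → Set (Fin 6)) : Prop where
  df : DF U T
  n3 : N3 T
  pf : ∀ {V a b c d}, DPt T V a b c d → Pf T V a b ∨ Pf T V c d
  hm : ∀ {V y a b c d A}, DPt T V a b c d → Pf T V a b → y ∈ closure (XA T V a b) →
    ¬ Six.Harm T y A

/-- the points of order at least four are in the closed arc -/
theorem XP.mem_arc (X : XP U T) (hV : DPt T V a b c d) (hP : Pf T V a b) (hy : dist y V = 1)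
    (h4 : 4 ≤ (T y).ncard) : y ∈ closure (XA T V a b) := by
  obtain ⟨s, t, hst, -, hI, -, -, -, hord⟩ := one_arc169 X.df.irr hV hP
    fun y1 y2 y3 => X.n3 V y1 y2 y3 hV.ncard.ge
  rcases hord y hy h4 with h1 | h1 <;> rw [h1]
  · exact end_in hst hI (left_mem_Icc.2 hst.le)
  · exact end_in hst hI (right_mem_Icc.2 hst.le)

/-- the colours of the pair are colours of the points of order at least four -/
theorem XP.sub_arc (X : XP U T) (hV : DPt T V a b c d) (hP : Pf T V a b) (hy : dist y V = 1)
    (h4 : 4 ≤ (T y).ncard) : a ∈ T y ∧ b ∈ T y :=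
  (closure_cases X.df.irr hV hP (X.mem_arc hV hP hy h4)).1.2

/-- **an end of the arc is a two-pair point at a border of `V`** -/
theorem XP.spl (X : XP U T) (hV : DPt T V a b c d) (hP : Pf T V a b)
    (hy : y ∈ closure (XA T V a b)) (h4 : 4 ≤ (T y).ncard) :
    ∃ g, (DPt T y a c b g ∨ DPt T y b d a g) ∨ (DPt T y a d b g ∨ DPt T y b c a g) := by
  have hE := (closure_cases X.df.irr hV hP hy).1
  have hyV : dist y V = 1 := hE.1
  have hVy : dist V y = 1 := by rw [dist_comm]; exact hyV
  rcases X.df.harm_or h4 with ⟨A, hA⟩ | ⟨p, q, r, s, hY⟩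
  · exact (X.hm hV hP hy hA).elim
  -- the pair of `y` without plain ends
  have key : ∀ {p q r s : Fin 6}, DPt T y p q r s → Pf T y p q →
      ∃ g, (DPt T y a c b g ∨ DPt T y b d a g) ∨ (DPt T y a d b g ∨ DPt T y b c a g) := by
    intro p q r s hY hPy
    have hcl := X.mem_arc hY hPy hVy hV.ncard.ge
    obtain ⟨hp, hq⟩ := X.sub_arc hY hPy hVy hV.ncard.ge
    have hpY : p ∈ T y := by rw [hY.pal]; simp
    have hqY : q ∈ T y := by rw [hY.pal]; simp
    -- a colour `c` or `d` of `V` in `T y`
    have h3 : c ∈ T y ∨ d ∈ T y := by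
      by_contra hcon
      rw [not_or] at hcon
      have k : ∀ i, i ∈ T V → i ∈ T y → i = a ∨ i = b := by
        intro i hi hi'
        rw [hV.pal] at hi
        rcases hi with h | h | h | h
        · exact Or.inl h
        · exact Or.inr h
        · exact (hcon.1 (h ▸ hi')).elim
        · rw [mem_singleton_iff] at h
          exact (hcon.2 (h ▸ hi')).elim
      have hpq : ({p, q} : Set (Fin 6)) = {a, b} := by
        rcases k p hp hpY with h5 | h5 <;> rcases k q hq hqY with h6 | h6
        · exact (hY.ab (h5.trans h6.symm)).elim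
        · rw [h5, h6]
        · rw [h5, h6, Set.pair_comm]
        · exact (hY.ab (h5.trans h6.symm)).elim
      refine no_pair800 X.df.irr hV hyV ?_
      have e : XA T y p q = {x | dist x y = 1 ∧ T x = {a, b}} := by
        unfold XA; rw [hpq]
      rwa [e] at hcl
    rcases h3 with hc | hd
    · rcases X.df.irr.k_border460 hV hyV hY hE.2.1 hE.2.2 hc with ⟨e, he⟩ | ⟨e, he⟩
      · exact ⟨e, Or.inl (Or.inl he)⟩
      · exact ⟨e, Or.inr (Or.inr he)⟩
    · rcases X.df.irr.k_border460 hV.swap34 hyV hY hE.2.1 hE.2.2 hd with ⟨e, he⟩ | ⟨e, he⟩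
      · exact ⟨e, Or.inr (Or.inl he)⟩
      · exact ⟨e, Or.inl (Or.inr he)⟩
  rcases X.pf hY with h5 | h5
  · exact key hY h5
  · exact key hY.swap h5

/-- **the input of the glue** -/
theorem XP.rw (X : XP U T) : Rw U T (fun _ _ => False) where
  irr := X.df.irr
  pf := X.pf
  spl := X.spl
  arc := fun {V a b c d} hV hP => by
    obtain ⟨s, t, hst, -, hI, hall, -⟩ := one_arc169 X.df.irr hV hP
      fun y1 y2 y3 => X.n3 V y1 y2 y3 hV.ncard.ge
    exact ⟨s, t, hst, hI, fun y h1 h2 => image_mono Ioo_subset_Icc_self (hall y h1 h2)⟩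
  typ := fun hV h1 _ h2 h3 h4 => typ800 X.df.irr hV h1 h2 h3 h4
  off := fun hV hP hy h4 hc => hc (X.mem_arc hV hP hy h4)
  lnk := fun {V y a b c d g} hV hP hy hY hg => by
    rcases X.pf hY with h5 | h5
    · exact h5
    · exact (hg (X.sub_arc hY.swap h5 (by rw [dist_comm]; exact hy) hV.ncard.ge).2).elim
  inv := fun h _ _ _ _ _ => h.elim

/-- **the world of quasi-full points, from the rows M and H** -/
theorem qiw_degC (hM : RowMC) (hH : RowHC) (X : XC U T) : QIW T (fun _ _ => False) :=
  (XP.rw ⟨X.df, X.n3, fun hV => hM U T X _ _ _ _ _ hV,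
    fun hV hP hy => hH U T X.df X.n3 _ _ _ _ _ hV hP _ hy _⟩).qiw

end Vale.Agent.P032.H800
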