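import Vale.Agent.P032.H800.XDeg
import Vale.Agent.P032.H416.XTop4

/-!
# P032, the degree theorem: the links, from row D2
-/

noncomputable section

namespace Vale.Agent.P032.H800

open Vale.Agent.P032.Six

/-- **`XLinksDeg` from row D2** -/
theorem xLinksDeg_of (hD : RowD2) : XLinksDeg := fun _ _ h hS h3 => qiw_deg hD ⟨h, hS, h3⟩

end Vale.Agent.P032.H800
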