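import Vale.Agent.P032.H800.XR
import Vale.Agent.P032.H800.Typ
import Vale.Agent.P032.H169.OneArc

/-!
# P032, the degree theorem: the links

World `XG U T` : `DF U T`, no split points (`NoSplit`), no point of order at least four with three
points of order at least four on its unit circle (`NoThree`).  `RowD2` : a limit of exact points of a
pair without plain ends is not harmless.

`XG.rw` : from `RowD2` the input of the generic glue; `qiw_deg` : `QIW T` without invisible points.
-/

open Set Filter Topology Metric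

noncomputable section

namespace Vale.Agent.P032.H800

open Vale.Agent.P032.Six Vale.Agent.P032.S5.H767 Vale.Agent.P032.H961 Vale.Agent.P032.H383

variable {U : Fin 6 → Set ℂ} {T : ℂ → Set (Fin 6)} {V y : ℂ} {a b c d g : Fin 6}

/-- the world of the degree theorem (the texts of `NoSplit`, `NoThree`) -/
structure XG (U : Fin 6 → Set ℂ) (T : ℂ → Set (Fin 6)) : Prop where
  df : DF U T
  ns : ∀ z v q, dist v z = 1 → dist q z = 1 → (T z).ncard = 4 → (T v).ncard = 3 →
    (T q).ncard = 3 → ¬ T z ⊆ T v ∪ T q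
  n3 : ∀ z y1 y2 y3, 4 ≤ (T z).ncard → dist y1 z = 1 → dist y2 z = 1 → dist y3 z = 1 →
    4 ≤ (T y1).ncard → 4 ≤ (T y2).ncard → 4 ≤ (T y3).ncard → y1 = y2 ∨ y1 = y3 ∨ y2 = y3

/-- row D2: an end of an arc of a pair without plain ends is not harmless -/
def RowD2 : Prop := ∀ (U : Fin 6 → Set ℂ) (T : ℂ → Set (Fin 6)), XG U T →
  ∀ V a b c d, DPt T V a b c d → Pf T V a b → ∀ y ∈ closure (XA T V a b), ∀ A, ¬ Six.Harm T y A

/-- row D1: one of the two pairs has no plain ends -/
theorem XG.pf (X : XG U T) (hV : DPt T V a b c d) : Pf T V a b ∨ Pf T V c d := by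
  by_contra hcon
  rw [not_or] at hcon
  obtain ⟨h1, h2⟩ := hcon
  unfold Pf at h1 h2
  push Not at h1 h2
  obtain ⟨x, x1, x2, x3⟩ := h1
  obtain ⟨y, y1, y2, y3⟩ := h2
  have hx : x ∈ EV T V a b := closure_minimal XA_sub (EV_closed X.df.irr) x3
  have hy : y ∈ EV T V c d := closure_minimal XA_sub (EV_closed X.df.irr) y3
  refine X.ns V x y x1 y1 hV.ncard x2 y2 ?_
  rw [hV.pal]
  rintro i (rfl | rfl | rfl | hi)
  · exact Or.inl hx.2.1
  · exact Or.inl hx.2.2
  · exact Or.inr hy.2.1
  · rw [mem_singleton_iff] at hi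
    rw [hi]
    exact Or.inr hy.2.2

/-- row D3 (169) in the form of this file: the points of order at least four are in the closed arc -/
theorem XG.mem_arc (X : XG U T) (hV : DPt T V a b c d) (hP : Pf T V a b) (hy : dist y V = 1)
    (h4 : 4 ≤ (T y).ncard) : y ∈ closure (XA T V a b) := by
  obtain ⟨s, t, hst, -, hI, -, -, -, hord⟩ := one_arc169 X.df.irr hV hP
    fun y1 y2 y3 => X.n3 V y1 y2 y3 hV.ncard.ge
  rcases hord y hy h4 with h1 | h1 <;> rw [h1]
  · exact end_in hst hI (left_mem_Icc.2 hst.le)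
  · exact end_in hst hI (right_mem_Icc.2 hst.le)

/-- the colours of the pair are colours of the points of order at least four -/
theorem XG.sub_arc (X : XG U T) (hV : DPt T V a b c d) (hP : Pf T V a b) (hy : dist y V = 1)
    (h4 : 4 ≤ (T y).ncard) : a ∈ T y ∧ b ∈ T y :=
  (closure_cases X.df.irr hV hP (X.mem_arc hV hP hy h4)).1.2

/-- **an end of the arc is a two-pair point at a border of `V`** -/
theorem XG.spl (hD : RowD2) (X : XG U T) (hV : DPt T V a b c d) (hP : Pf T V a b)
    (hy : y ∈ closure (XA T V a b)) (h4 : 4 ≤ (T y).ncard) :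
    ∃ g, (DPt T y a c b g ∨ DPt T y b d a g) ∨ (DPt T y a d b g ∨ DPt T y b c a g) := by
  have hE := (closure_cases X.df.irr hV hP hy).1
  have hyV : dist y V = 1 := hE.1
  have hVy : dist V y = 1 := by rw [dist_comm]; exact hyV
  rcases X.df.harm_or h4 with ⟨A, hA⟩ | ⟨p, q, r, s, hY⟩
  · exact (hD U T X V a b c d hV hP y hy A hA).elim
  -- the pair of `y` without plain ends
  have key : ∀ {p q r s : Fin 6}, DPt T y p q r s → Pf T y p q →
      ∃ g, (DPt T y a c b g ∨ DPt T y b d a g) ∨ (DPt T y a d b g ∨ DPt T y b c a g) := by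
    intro p q r s hY hPy
    have hcl := X.mem_arc hY hPy hVy hV.ncard.ge
    obtain ⟨hp, hq⟩ := X.sub_arc hY hPy hVy hV.ncard.ge
    have hpY : p ∈ T y := by rw [hY.pal]; simp
    have hqY : q ∈ T y := by rw [hY.pal]; simp
    -- a colour `c` or `d` of `V` in `T y`
    have h3 : c ∈ T y ∨ d ∈ T y := by
      by_contra hcon
      rw [not_or] at hcon
      have k : ∀ i, i ∈ T V → i ∈ T y → i = a ∨ i = b := by
        intro i hi hi'
        rw [hV.pal] at hi
        rcases hi with h | h | h | h
        · exact Or.inl h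
        · exact Or.inr h
        · exact (hcon.1 (h ▸ hi')).elim
        · rw [mem_singleton_iff] at h
          exact (hcon.2 (h ▸ hi')).elim
      have hpq : ({p, q} : Set (Fin 6)) = {a, b} := by
        rcases k p hp hpY with h5 | h5 <;> rcases k q hq hqY with h6 | h6
        · exact (hY.ab (h5.trans h6.symm)).elim
        · rw [h5, h6]
        · rw [h5, h6, Set.pair_comm]
        · exact (hY.ab (h5.trans h6.symm)).elim
      refine no_pair800 X.df.irr hV hyV ?_
      have e : XA T y p q = {x | dist x y = 1 ∧ T x = {a, b}} := by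
        unfold XA; rw [hpq]
      rwa [e] at hcl
    rcases h3 with hc | hd
    · rcases X.df.irr.k_border460 hV hyV hY hE.2.1 hE.2.2 hc with ⟨e, he⟩ | ⟨e, he⟩
      · exact ⟨e, Or.inl (Or.inl he)⟩
      · exact ⟨e, Or.inr (Or.inr he)⟩
    · rcases X.df.irr.k_border460 hV.swap34 hyV hY hE.2.1 hE.2.2 hd with ⟨e, he⟩ | ⟨e, he⟩
      · exact ⟨e, Or.inr (Or.inl he)⟩
      · exact ⟨e, Or.inl (Or.inr he)⟩
  rcases X.pf hY with h5 | h5
  · exact key hY h5
  · exact key hY.swap h5

/-- **the input of the glue in the world of the degree theorem** -/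
theorem XG.rw (hD : RowD2) (X : XG U T) : Rw U T (fun _ _ => False) where
  irr := X.df.irr
  pf := X.pf
  spl := X.spl hD
  arc := fun {V a b c d} hV hP => by
    obtain ⟨s, t, hst, -, hI, hall, -⟩ := one_arc169 X.df.irr hV hP
      fun y1 y2 y3 => X.n3 V y1 y2 y3 hV.ncard.ge
    exact ⟨s, t, hst, hI, fun y h1 h2 => image_mono Ioo_subset_Icc_self (hall y h1 h2)⟩
  typ := fun hV h1 _ h2 h3 h4 => typ800 X.df.irr hV h1 h2 h3 h4
  off := fun hV hP hy h4 hc => hc (X.mem_arc hV hP hy h4)
  lnk := fun {V y a b c d g} hV hP hy hY hg => by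
    rcases X.pf hY with h5 | h5
    · exact h5
    · exact (hg (X.sub_arc hY.swap h5 (by rw [dist_comm]; exact hy) hV.ncard.ge).2).elim
  inv := fun h _ _ _ _ _ => h.elim

/-- **the world of quasi-full points, from row D2** -/
theorem qiw_deg (hD : RowD2) (X : XG U T) : QIW T (fun _ _ => False) := (X.rw hD).qiw

end Vale.Agent.P032.H800
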