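import Vale.Agent.P032.H326.Rays5
import Vale.Agent.P032.H187.Product

/-!
# P032: one-sided rays and the antipodal rule with one colour left

`Mx.one_ray800`: if the circle `S(z)` carries the colour `i` just after the direction `t0`
(`σ = 1`) or just before it (`σ = -1`), then the ray at `z` in the direction `σ i e(t0)` has no
colour `i`.  `Irr.one_ray_sub800`: letters `P` just after `t0` and `Q` just before the antipodal
direction; the ray has all palettes inside `T z` minus `P ∪ Q`.  At an event this gives the six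
one-sided rays of a column (letters before and letters after mixed).
`Irr.anti_left800`: the antipodal rule with one colour left (no condition on the number of colours
of `z`), for the letters before and after one event; `Irr.anti_arc800` is the form for exact arcs:
antipodal exact arcs with palettes `P`, `Q` never leave only one colour of `T z`.
-/

open Set Filter Topology Metric

noncomputable section

namespace Vale.Agent.P032.Six

variable {k : ℕ} {U : Fin k → Set ℂ} {T : ℂ → Set (Fin k)}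

/-- **One-sided ray.**  A colour carried by `S(z)` just after the direction `t0` is absent on the
ray in the direction `i e(t0)`; a colour carried just before `t0` is absent on the opposite ray. -/
theorem Mx.one_ray800 (h : Mx U) {z : ℂ} {t0 : ℝ} {i : Fin k} {σ : ℝ} (hσ : σ = 1 ∨ σ = -1)
    (hJ : ∀ᶠ s : ℝ in 𝓝[>] 0, i ∈ Pal U (z + cis (t0 + σ * s))) :
    ∀ᶠ r : ℝ in 𝓝[>] 0, i ∉ Pal U (z + r * (σ * (Complex.I * cis t0))) := by
  obtain ⟨η, hη, hd⟩ := mem_nhdsGT_iff_exists_Ioo_subset.1 hJ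
  have hη0 : 0 < η := hη
  set s := min (η / 2) 1 with hs
  have hs0 : 0 < s := by positivity
  have hs1 : s ≤ 1 := min_le_right _ _
  have hsη : s < η := lt_of_le_of_lt (min_le_left _ _) (by linarith)
  have hsin : 0 < Real.sin s := Real.sin_pos_of_pos_of_lt_pi hs0 (by linarith [Real.pi_gt_three])
  have hr : ∀ᶠ r : ℝ in 𝓝[>] 0, (0 < r ∧ r < 2 * Real.sin s) ∧ r < s := by
    filter_upwards [self_mem_nhdsWithin,
      mem_nhdsWithin_of_mem_nhds (Iio_mem_nhds (show (0 : ℝ) < 2 * Real.sin s by linarith)),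
      mem_nhdsWithin_of_mem_nhds (Iio_mem_nhds hs0)]
      with r h1 h2 h3
    exact ⟨⟨h1, h2⟩, h3⟩
  filter_upwards [hr] with r hr
  obtain ⟨⟨hr0, hr2⟩, hr3⟩ := hr
  have key : ∀ t : ℝ, dist (z + cis t) (z + r * (σ * (Complex.I * cis t0))) ^ 2 =
      1 - 2 * r * σ * Real.sin (t - t0) + r ^ 2 := by
    intro t
    have hσ2 : σ ^ 2 = 1 := by rcases hσ with rfl | rfl <;> norm_num
    rw [sq_dist]
    simp only [Complex.add_re, Complex.add_im, Complex.mul_re, Complex.mul_im, Complex.ofReal_re,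
      Complex.ofReal_im, Complex.I_re, Complex.I_im, cis_re, cis_im]
    rw [Real.sin_sub]
    have h1 := Real.sin_sq_add_cos_sq t
    have h2 := Real.sin_sq_add_cos_sq t0
    linear_combination h1 + r ^ 2 * σ ^ 2 * h2 + r ^ 2 * hσ2
  have hsg : ∀ v : ℝ, 2 * r * σ * Real.sin (t0 + σ * v - t0) = 2 * r * Real.sin v := by
    intro v
    have h3 : σ * Real.sin (t0 + σ * v - t0) = Real.sin v := by
      rcases hσ with rfl | rfl
      · rw [show t0 + 1 * v - t0 = v by ring]; ring
      · rw [show t0 + -1 * v - t0 = -v by ring, Real.sin_neg]; ring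
    rw [mul_assoc (2 * r), h3]
  have hd1 := dist_nonneg (x := z + cis (t0 + σ * s)) (y := z + r * (σ * (Complex.I * cis t0)))
  have hd2 := dist_nonneg (x := z + cis (t0 + σ * (r / 4)))
    (y := z + r * (σ * (Complex.I * cis t0)))
  refine h.swept (z := z) (t1 := t0 + σ * s) (t2 := t0 + σ * (r / 4)) ?_ ?_ ?_
  · intro t ht
    have h4 : ∃ v ∈ Ioo (0 : ℝ) η, t = t0 + σ * v := by
      rcases hσ with rfl | rfl
      · rw [uIcc_of_ge (by linarith)] at ht
        exact ⟨t - t0, ⟨by linarith [ht.1], by linarith [ht.2]⟩, by ring⟩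
      · rw [uIcc_of_le (by linarith)] at ht
        exact ⟨t0 - t, ⟨by linarith [ht.2], by linarith [ht.1]⟩, by ring⟩
    obtain ⟨v, hv, rfl⟩ := h4
    exact hd hv
  · have := key (t0 + σ * s)
    rw [hsg] at this
    nlinarith
  · have := key (t0 + σ * (r / 4))
    rw [hsg] at this
    have h5 : Real.sin (r / 4) ≤ r / 4 := Real.sin_le (by linarith)
    have h6 : 2 * r * Real.sin (r / 4) ≤ 2 * r * (r / 4) :=
      mul_le_mul_of_nonneg_left h5 (by linarith)
    nlinarith [mul_pos hr0 hr0]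

/-- **The one-sided ray of a column.**  `P` is carried just after `t0` (`σ = 1`; just before it if
`σ = -1`), `Q` just before (just after) the antipodal direction. -/
theorem Irr.one_ray_sub800 (h : Irr U T) {z : ℂ} {t0 : ℝ} {P Q : Set (Fin k)} {σ : ℝ}
    (hσ : σ = 1 ∨ σ = -1)
    (hP : ∀ᶠ s : ℝ in 𝓝[>] 0, P ⊆ Pal U (z + cis (t0 + σ * s)))
    (hQ : ∀ᶠ s : ℝ in 𝓝[>] 0, Q ⊆ Pal U (z - cis (t0 - σ * s))) :
    ∀ᶠ r : ℝ in 𝓝[>] 0, T (z + r * (σ * (Complex.I * cis t0))) ⊆ T z \ (P ∪ Q) := by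
  have e1 : ∀ i ∈ P, ∀ᶠ r : ℝ in 𝓝[>] 0, i ∉ Pal U (z + r * (σ * (Complex.I * cis t0))) := by
    intro i hi
    refine h.mx.one_ray800 hσ ?_
    filter_upwards [hP] with s hs
    exact hs hi
  have e2 : ∀ i ∈ Q, ∀ᶠ r : ℝ in 𝓝[>] 0, i ∉ Pal U (z + r * (σ * (Complex.I * cis t0))) := by
    intro i hi
    have h1 : ∀ᶠ s : ℝ in 𝓝[>] 0, i ∈ Pal U (z + cis (t0 + Real.pi + -σ * s)) := by
      filter_upwards [hQ] with s hs
      have h2 := hs hi
      have h3 : z + cis (t0 + Real.pi + -σ * s) = z - cis (t0 - σ * s) := by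
        rw [show t0 + Real.pi + -σ * s = (t0 - σ * s) + Real.pi by ring, cis_add_pi326]
        ring
      rw [h3]
      exact h2
    have h4 := h.mx.one_ray800 (z := z) (t0 := t0 + Real.pi) (σ := -σ) (i := i)
      (by rcases hσ with rfl | rfl <;> simp) h1
    filter_upwards [h4] with r hr
    have h5 : z + r * (σ * (Complex.I * cis t0)) =
        z + r * (((-σ : ℝ) : ℂ) * (Complex.I * cis (t0 + Real.pi))) := by
      rw [cis_add_pi326]
      push_cast
      ring
    rw [h5]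
    exact hr
  have e1' : ∀ᶠ r : ℝ in 𝓝[>] 0, ∀ i, i ∈ P →
      i ∉ Pal U (z + r * (σ * (Complex.I * cis t0))) := by
    rw [eventually_all]
    intro i
    by_cases hi : i ∈ P
    · filter_upwards [e1 i hi] with r hr _
      exact hr
    · exact Eventually.of_forall fun r h1 => absurd h1 hi
  have e2' : ∀ᶠ r : ℝ in 𝓝[>] 0, ∀ i, i ∈ Q →
      i ∉ Pal U (z + r * (σ * (Complex.I * cis t0))) := by
    rw [eventually_all]
    intro i
    by_cases hi : i ∈ Q
    · filter_upwards [e2 i hi] with r hr _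
      exact hr
    · exact Eventually.of_forall fun r h1 => absurd h1 hi
  filter_upwards [e1', e2', ray_nhd326 z (σ * (Complex.I * cis t0)) (h.nhd z)] with r h1 h2 h3 i hi
  refine ⟨h3 hi, ?_⟩
  rintro (h4 | h4)
  · exact h1 i h4 (h.sub _ hi)
  · exact h2 i h4 (h.sub _ hi)

/-- one colour left: the ray is solid -/
theorem Irr.one_ray_solid800 (h : Irr U T) {z : ℂ} {t0 : ℝ} {P Q : Set (Fin k)} {j : Fin k}
    {σ : ℝ} (hσ : σ = 1 ∨ σ = -1)
    (hP : ∀ᶠ s : ℝ in 𝓝[>] 0, P ⊆ Pal U (z + cis (t0 + σ * s)))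
    (hQ : ∀ᶠ s : ℝ in 𝓝[>] 0, Q ⊆ Pal U (z - cis (t0 - σ * s)))
    (hT : T z ⊆ insert j (P ∪ Q)) : Ray (U j) z (σ * (Complex.I * cis t0)) := by
  unfold Ray
  filter_upwards [h.one_ray_sub800 hσ hP hQ] with r hr
  refine h.mem_of_single fun i hi => ?_
  obtain ⟨h1, h2⟩ := hr hi
  rcases hT h1 with h3 | h3
  · exact h3
  · exact absurd h3 h2

/-- no colour left is impossible -/
theorem Irr.one_ray_none800 (h : Irr U T) {z : ℂ} {t0 : ℝ} {P Q : Set (Fin k)}
    {σ : ℝ} (hσ : σ = 1 ∨ σ = -1)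
    (hP : ∀ᶠ s : ℝ in 𝓝[>] 0, P ⊆ Pal U (z + cis (t0 + σ * s)))
    (hQ : ∀ᶠ s : ℝ in 𝓝[>] 0, Q ⊆ Pal U (z - cis (t0 - σ * s)))
    (hT : T z ⊆ P ∪ Q) : False := by
  obtain ⟨r, hr⟩ := (h.one_ray_sub800 hσ hP hQ).exists
  obtain ⟨i, hi⟩ := h.ne (z + r * (σ * (Complex.I * cis t0)))
  exact (hr hi).2 (hT (hr hi).1)

/-- two colours left which form an exact pair: the ray is solid in one of them -/
theorem Irr.one_ray_two800 (h : Irr U T) {z : ℂ} {t0 : ℝ} {P Q : Set (Fin k)} {p q : Fin k}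
    {σ : ℝ} (hσ : σ = 1 ∨ σ = -1)
    (hP : ∀ᶠ s : ℝ in 𝓝[>] 0, P ⊆ Pal U (z + cis (t0 + σ * s)))
    (hQ : ∀ᶠ s : ℝ in 𝓝[>] 0, Q ⊆ Pal U (z - cis (t0 - σ * s)))
    (hT : T z ⊆ {p, q} ∪ (P ∪ Q)) (hpq : ∃ y, Arc T z y {p, q}) (hne : p ≠ q) :
    Ray (U p) z (σ * (Complex.I * cis t0)) ∨ Ray (U q) z (σ * (Complex.I * cis t0)) := by
  obtain ⟨y, hy⟩ := hpq
  have hyT : T y = {p, q} := hy.mem
  have hnl := h.no_layer (z := z) (q := y) hy.1
  refine h.ray_solid ?_
  filter_upwards [h.one_ray_sub800 hσ hP hQ,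
    ray_nhd326 z (σ * (Complex.I * cis t0)) hnl] with r h1 h4
  have h5 : T (z + r * (σ * (Complex.I * cis t0))) ⊆ {p, q} := by
    intro i hi
    obtain ⟨h2, h3⟩ := h1 hi
    rcases hT h2 with h6 | h6
    · exact h6
    · exact absurd h6 h3
  refine ⟨h5, fun h6 => ?_⟩
  have h7 := h4 (by rw [hyT, h6])
  rw [h6, Set.ncard_pair hne] at h7
  omega

/-- **The antipodal rule with one colour left, at an event.**  `P`, `P'` are the letters of `S(z)`
just before and just after the direction `t0`, `Q`, `Q'` those just before and just after the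
antipodal direction; the mixed unions `P' ∪ Q` and `P ∪ Q'` cannot both leave only the colour `j`,
if `j` is seen from `z` off the line. -/
theorem Irr.anti_left800 (h : Irr U T) {z y : ℂ} {t0 : ℝ} {P P' Q Q' : Set (Fin k)} {j : Fin k}
    (hP : ∀ᶠ s : ℝ in 𝓝[>] 0, P ⊆ Pal U (z + cis (t0 - s)))
    (hP' : ∀ᶠ s : ℝ in 𝓝[>] 0, P' ⊆ Pal U (z + cis (t0 + s)))
    (hQ : ∀ᶠ s : ℝ in 𝓝[>] 0, Q ⊆ Pal U (z - cis (t0 - s)))
    (hQ' : ∀ᶠ s : ℝ in 𝓝[>] 0, Q' ⊆ Pal U (z - cis (t0 + s)))
    (hT : T z ⊆ insert j (P' ∪ Q)) (hT' : T z ⊆ insert j (P ∪ Q'))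
    (hy : dist y z = 1) (hj : j ∈ Pal U y) (h1 : y ≠ z + cis t0) (h2 : y ≠ z - cis t0) :
    False := by
  have r1 : Ray (U j) z (((1 : ℝ) : ℂ) * (Complex.I * cis t0)) := by
    refine h.one_ray_solid800 (Or.inl rfl) (P := P') (Q := Q) ?_ ?_ hT
    · filter_upwards [hP'] with s hs
      rw [one_mul]; exact hs
    · filter_upwards [hQ] with s hs
      rw [one_mul]; exact hs
  have r2 : Ray (U j) z (((-1 : ℝ) : ℂ) * (Complex.I * cis t0)) := by
    refine h.one_ray_solid800 (Or.inr rfl) (P := P) (Q := Q') ?_ ?_ hT'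
    · filter_upwards [hP] with s hs
      rw [show t0 + -1 * s = t0 - s by ring]; exact hs
    · filter_upwards [hQ'] with s hs
      rw [show t0 - -1 * s = t0 + s by ring]; exact hs
  have e1 : ((1 : ℝ) : ℂ) * (Complex.I * cis t0) = Complex.I * cis t0 := by push_cast; ring
  have e2 : ((-1 : ℝ) : ℂ) * (Complex.I * cis t0) = -(Complex.I * cis t0) := by push_cast; ring
  rw [e1] at r1
  rw [e2] at r2
  have hzy : dist z y = 1 := by rw [dist_comm]; exact hy
  refine h.mx.not_both_rays r1 r2 hzy hj fun hip => ?_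
  -- `y - z` is orthogonal to `i e(t0)`
  obtain ⟨t1, ht1⟩ := exists_cis (u := y - z) (by rw [← dist_eq_norm]; exact hy)
  rw [ht1] at hip
  unfold ip at hip
  simp only [Complex.mul_re, Complex.mul_im, Complex.I_re, Complex.I_im, cis_re, cis_im,
    zero_mul, one_mul, zero_sub, zero_add] at hip
  have h3 : Real.sin (t1 - t0) = 0 := by
    rw [Real.sin_sub]; linarith
  have hyt : y = z + cis t1 := by rw [← ht1]; ring
  obtain ⟨n, hn⟩ := Real.sin_eq_zero_iff.1 h3
  have h4 : cis t1 = cis t0 ∨ cis t1 = -cis t0 := by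
    have h5 : t1 = t0 + n * Real.pi := by linarith
    rw [h5]
    rcases Int.even_or_odd n with ⟨m, hm⟩ | ⟨m, hm⟩
    · left
      unfold cis
      rw [hm]
      rw [Complex.exp_eq_exp_iff_exists_int]
      exact ⟨m, by push_cast; ring⟩
    · right
      rw [← cis_add_pi326]
      unfold cis
      rw [hm]
      rw [Complex.exp_eq_exp_iff_exists_int]
      exact ⟨m, by push_cast; ring⟩
  rcases h4 with h5 | h5
  · exact h1 (by rw [hyt, h5])
  · exact h2 (by rw [hyt, h5]; ring)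

/-- **The antipodal rule with one colour left**, exact arcs: antipodal exact arcs with palettes `P`
and `Q` do not leave only one colour `j` of `T z`, if `j` is a colour of some exact arc of `S(z)`.
In particular at a centre of order five antipodal exact pairs have a colour in common. -/
theorem Irr.anti_arc800 (h : Irr U T) {z g y : ℂ} {P Q R : Set (Fin k)} {j : Fin k}
    (hg : Arc T z g P) (hg' : Arc T z (2 * z - g) Q) (hT : T z ⊆ insert j (P ∪ Q))
    (hy : Arc T z y R) (hj : j ∈ R) : False := by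
  obtain ⟨t0, ht0⟩ := exists_cis (u := g - z) (by rw [← dist_eq_norm]; exact hg.1)
  have hgt : g = z + cis t0 := by rw [← ht0]; ring
  obtain ⟨y', hy', hne, hne'⟩ := hy.exists_off_line (y := g)
  have hgt' : 2 * z - g = z + cis (t0 + Real.pi) := by rw [cis_add_pi326, hgt]; ring
  rw [hgt'] at hg'
  have hg2 := hg
  rw [hgt] at hg2
  obtain ⟨η, hη, hJ⟩ := hg2.exists_eta
  obtain ⟨η', hη', hJ'⟩ := hg'.exists_eta
  have e1 : ∀ᶠ s : ℝ in 𝓝[>] 0, 0 < s ∧ s < η ∧ s < η' := by
    filter_upwards [self_mem_nhdsWithin, mem_nhdsWithin_of_mem_nhds (Iio_mem_nhds hη),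
      mem_nhdsWithin_of_mem_nhds (Iio_mem_nhds hη')] with s h1 h2 h3
    exact ⟨h1, h2, h3⟩
  have hPs : ∀ t : ℝ, |t - t0| < η → P ⊆ Pal U (z + cis t) := fun t ht i hi =>
    h.sub _ (by rw [hJ t ht]; exact hi)
  have hQs : ∀ t : ℝ, |t - t0| < η' → Q ⊆ Pal U (z - cis t) := by
    intro t ht i hi
    have h1 : z - cis t = z + cis (t + Real.pi) := by rw [cis_add_pi326]; ring
    rw [h1]
    refine h.sub _ ?_
    rw [hJ' (t + Real.pi) (by rw [show t + Real.pi - (t0 + Real.pi) = t - t0 by ring]; exact ht)]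
    exact hi
  have habs : ∀ s : ℝ, 0 < s → |t0 - s - t0| = s ∧ |t0 + s - t0| = s := by
    intro s hs
    rw [show t0 - s - t0 = -s by ring, abs_neg, abs_of_pos hs,
      show t0 + s - t0 = s by ring, abs_of_pos hs]
    exact ⟨rfl, rfl⟩
  refine h.anti_left800 (z := z) (y := y') (t0 := t0) (P := P) (P' := P) (Q := Q) (Q' := Q)
    (j := j) ?_ ?_ ?_ ?_ hT hT hy'.1 (h.sub _ (by rw [hy'.mem]; exact hj))
    (by rw [← hgt]; exact hne) fun h1 => hne' (by rw [h1, hgt]; ring)
  · filter_upwards [e1] with s hs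
    exact hPs _ (by rw [(habs s hs.1).1]; exact hs.2.1)
  · filter_upwards [e1] with s hs
    exact hPs _ (by rw [(habs s hs.1).2]; exact hs.2.1)
  · filter_upwards [e1] with s hs
    exact hQs _ (by rw [(habs s hs.1).1]; exact hs.2.2)
  · filter_upwards [e1] with s hs
    exact hQs _ (by rw [(habs s hs.1).2]; exact hs.2.2)

/-- **Order five** (or less): antipodal exact arcs with two colours of `T z` each have a colour in
common, if every colour of `T z` is a colour of some exact arc of `S(z)`. -/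
theorem Irr.anti_five800 (h : Irr U T) {z g : ℂ} {P Q : Set (Fin k)}
    (h5 : (T z).ncard ≤ 5) (hg : Arc T z g P) (hg' : Arc T z (2 * z - g) Q)
    (hP : P ⊆ T z) (hQ : Q ⊆ T z) (hP2 : 2 ≤ P.ncard) (hQ2 : 2 ≤ Q.ncard)
    (hex : ∀ j ∈ T z, ∃ y R, Arc T z y R ∧ j ∈ R) : (P ∩ Q).Nonempty := by
  by_contra hcon
  rw [not_nonempty_iff_eq_empty] at hcon
  have h1 : (P ∪ Q).ncard = P.ncard + Q.ncard :=
    ncard_union_eq (disjoint_iff_inter_eq_empty.2 hcon) (toFinite _) (toFinite _)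
  have h2 : (T z \ (P ∪ Q)).ncard + (P ∪ Q).ncard = (T z).ncard :=
    ncard_sdiff_add_ncard_of_subset (union_subset hP hQ) (toFinite _)
  have h3 : (T z \ (P ∪ Q)).ncard ≤ 1 := by omega
  have hPne : P.Nonempty := by
    rw [← ncard_pos (toFinite _)]; omega
  obtain ⟨j₀, hj₀⟩ := hPne
  rw [ncard_le_one (toFinite _)] at h3
  by_cases h4 : ∃ j, j ∈ T z \ (P ∪ Q)
  · obtain ⟨j, hj⟩ := h4
    obtain ⟨y, R, hy, hjR⟩ := hex j hj.1
    refine h.anti_arc800 hg hg' (j := j) (fun i hi => ?_) hy hjR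
    by_cases h5 : i ∈ P ∪ Q
    · exact Or.inr h5
    · exact Or.inl (h3 i ⟨hi, h5⟩ j hj)
  · push Not at h4
    obtain ⟨y, R, hy, hjR⟩ := hex j₀ (hP hj₀)
    refine h.anti_arc800 hg hg' (j := j₀) (fun i hi => ?_) hy hjR
    by_cases h5 : i ∈ P ∪ Q
    · exact Or.inr h5
    · exact absurd ⟨hi, h5⟩ (h4 i)

/-- the crossing point form: letters `P` at the direction `t0 + σ s` and `Q` at
`t0 + π - σ s` are absent at the point `2 sin s` of the ray -/
theorem Irr.ray_pt800 (h : Irr U T) {z : ℂ} {t0 s : ℝ} {P Q : Set (Fin k)} {σ : ℝ}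
    (hσ : σ = 1 ∨ σ = -1) (hs : 0 < s) (hs2 : s < Real.pi / 2)
    (hP : z + cis (t0 + σ * s) ∈ H187.Cr U z P) (hQ : z - cis (t0 - σ * s) ∈ H187.Cr U z Q) :
    ∀ i ∈ P ∪ Q, i ∉ Pal U (z + (2 * Real.sin s : ℝ) * (σ * (Complex.I * cis t0))) := by
  set x : ℂ := z + (2 * Real.sin s : ℝ) * (σ * (Complex.I * cis t0)) with hx
  have hsin : 0 < Real.sin s := Real.sin_pos_of_pos_of_lt_pi hs (by linarith [Real.pi_pos])
  have hcos : 0 < Real.cos s := Real.cos_pos_of_mem_Ioo ⟨by linarith, hs2⟩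
  have key : ∀ t : ℝ, dist (z + cis t) x ^ 2 =
      1 - 4 * Real.sin s * σ * Real.sin (t - t0) + 4 * Real.sin s ^ 2 := by
    intro t
    have hσ2 : σ ^ 2 = 1 := by rcases hσ with rfl | rfl <;> norm_num
    rw [hx, sq_dist]
    simp only [Complex.add_re, Complex.add_im, Complex.mul_re, Complex.mul_im, Complex.ofReal_re,
      Complex.ofReal_im, Complex.I_re, Complex.I_im, cis_re, cis_im]
    rw [Real.sin_sub]
    have h1 := Real.sin_sq_add_cos_sq t
    have h2 := Real.sin_sq_add_cos_sq t0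
    linear_combination h1 + 4 * Real.sin s ^ 2 * σ ^ 2 * h2 + 4 * Real.sin s ^ 2 * hσ2
  have hxz : x ≠ z := by
    intro h1
    have h2 : ((2 * Real.sin s : ℝ) : ℂ) * (σ * (Complex.I * cis t0)) = 0 := by
      rw [hx] at h1
      linear_combination h1
    have h3 : ‖((2 * Real.sin s : ℝ) : ℂ) * (σ * (Complex.I * cis t0))‖ = 2 * Real.sin s := by
      rw [norm_mul, norm_mul, norm_mul, Complex.norm_I, norm_cis, Complex.norm_real,
        Complex.norm_real, Real.norm_of_nonneg (by linarith)]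
      rcases hσ with rfl | rfl <;> simp
    rw [h2, norm_zero] at h3
    linarith
  have hd : ∀ t : ℝ, σ * Real.sin (t - t0) = Real.sin s → dist (z + cis t) x = 1 := by
    intro t ht
    have h1 := key t
    rw [mul_assoc (4 * Real.sin s), ht] at h1
    have h2 := dist_nonneg (x := z + cis t) (y := x)
    nlinarith
  have hne : ∀ t : ℝ, x + z ≠ 2 * (z + cis t) := by
    intro t h1
    have h2 : ((2 * Real.sin s : ℝ) : ℂ) * (σ * (Complex.I * cis t0)) = 2 * cis t := by
      rw [hx] at h1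
      linear_combination h1
    have h3 : ‖((2 * Real.sin s : ℝ) : ℂ) * (σ * (Complex.I * cis t0))‖ = 2 * Real.sin s := by
      rw [norm_mul, norm_mul, norm_mul, Complex.norm_I, norm_cis, Complex.norm_real,
        Complex.norm_real, Real.norm_of_nonneg (by linarith)]
      rcases hσ with rfl | rfl <;> simp
    rw [h2, norm_mul, norm_cis] at h3
    have h4 := Real.sin_sq_add_cos_sq s
    simp only [Complex.norm_ofNat, mul_one] at h3
    nlinarith
  rintro i (hi | hi)
  · refine H187.Cr_line h.mx hP hi (hd _ ?_) hxz (hne _)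
    rcases hσ with rfl | rfl
    · rw [show t0 + 1 * s - t0 = s by ring]; ring
    · rw [show t0 + -1 * s - t0 = -s by ring, Real.sin_neg]; ring
  · have h1 : z - cis (t0 - σ * s) = z + cis (t0 - σ * s + Real.pi) := by
      rw [cis_add_pi326]; ring
    rw [h1] at hQ
    refine H187.Cr_line h.mx hQ hi (hd _ ?_) hxz (hne _)
    rw [show t0 - σ * s + Real.pi - t0 = Real.pi - σ * s by ring, Real.sin_pi_sub]
    rcases hσ with rfl | rfl
    · rw [one_mul, one_mul]
    · rw [show -1 * s = -s by ring, Real.sin_neg]; ring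

end Vale.Agent.P032.Six
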