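import Vale.Agent.P032.H989.Wave
import Vale.Agent.P032.H800.OneRay
import Vale.Agent.P032.H824.Cone
import Vale.Agent.P032.H429.Half

/-!
# P032: the cusp rule in the two-time (wild) form

`z` any centre.  The point `X800 z w s n = pt z (w + s) + pt z (w + 3 - n) - z` (`s, n` small and
positive, times in units of sixty degrees) is near `z`, in the direction orthogonal to `pt z w`, and at
distance one from the points of `S(z)` at the time `w + s` (just after the slot `w`) and `w + 3 - n` (just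
before the antipodal slot).  So letters `P` carried by an arc at the first time and `Q` carried by an arc
at the second time are both absent at this point (`two_pt800`).

`Irr.cusp_sees800`: suppose that letters `P ∈ A` are carried at times which are dense just after `w`,
and letters `Q ∈ B` at times which accumulate just before `w + 3` (no regularity of the arcs is
needed).  Then every circle `S(v)`, `v` near a point `V` of `S(z)` on the side of the ray, `v` outside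
`S(z)` (on the other side: `v` inside), meets near `z` a point `x` with `T x ⊆ T z \ (P ∪ Q)`,
`P ∈ A`, `Q ∈ B`.  `Irr.cusp_sees800'`: `A` accumulates, `B` is dense.  If one colour `m` is left for all
`P, Q`, then `m` is absent near `V` on this side (`cusp_far800`).  `Mix800` is the common form of the
hypotheses; `mix_base800` gives both mixed rays of a slot and its antipode at a base time of an event with
old and new letters.
-/

open Set Filter Topology Metric

noncomputable section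

namespace Vale.Agent.P032.Six

open Vale.Agent.P032.H187 Vale.Agent.P032.H989 Vale.Agent.P032.S5.H767

variable {k : ℕ} {U : Fin k → Set ℂ} {T : ℂ → Set (Fin k)}

/-- a function which decreases in both variables, and two sets of times -/
theorem hit_abs800 {F : ℝ → ℝ → ℝ} (hc : Continuous fun p : ℝ × ℝ => F p.1 p.2) {δ : ℝ}
    (hδ : 0 < δ) (h1 : ∀ n ∈ Icc (-δ) δ, StrictAntiOn (fun s => F s n) (Icc (-δ) δ))
    (h2 : ∀ s ∈ Icc (-δ) δ, StrictAntiOn (fun n => F s n) (Icc (-δ) δ)) {P Q : Set ℝ}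
    (hP : ∀ s t, 0 < s → s < t → t < δ → ∃ r ∈ P, s < r ∧ r < t) (hQo : IsOpen Q)
    (hQ : ∀ η > 0, ∃ r ∈ Q, 0 < r ∧ r < η) (h0 : 0 < F 0 0) (h3 : F δ 0 < 0) :
    ∃ s ∈ P, ∃ n ∈ Q, 0 < s ∧ s < δ ∧ 0 < n ∧ n < δ ∧ F s n = 0 := by
  have hcG : Continuous fun p : ℝ × ℝ => -F (-p.1) p.2 :=
    (hc.comp ((continuous_fst.neg).prodMk continuous_snd)).neg
  obtain ⟨n', hn', n, hn, g1, g2, g3, g4, g5⟩ := cross_abs (G := fun a b => -F (-a) b) hcG hδ
    (fun s hs x hx y hy hxy => by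
      have := h1 s hs (a := -y) (b := -x) ⟨by linarith [hy.2], by linarith [hy.1]⟩
        ⟨by linarith [hx.2], by linarith [hx.1]⟩ (by linarith)
      simp only at this ⊢
      linarith)
    (fun s hs x hx y hy hxy => by
      have := h2 (-s) ⟨by linarith [hs.2], by linarith [hs.1]⟩ hx hy hxy
      simp only at this ⊢
      linarith)
    (P := {r | -r ∈ P}) (Q := Q)
    (fun s t a b c => by
      obtain ⟨r, hr, d, e⟩ := hP (-t) (-s) (by linarith) (by linarith) (by linarith)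
      exact ⟨-r, by rw [mem_ofPred_eq, neg_neg]; exact hr, by linarith, by linarith⟩)
    hQo hQ (by simpa using h0) (by simpa using h3)
  exact ⟨-n', hn', n, hn, by linarith, by linarith, g3, g4, by linarith⟩

/-- the point at distance one from the times `w + s` and `w + 3 - n` of `S(z)` -/
def X800 (z : ℂ) (w s n : ℝ) : ℂ := pt z (w + s) + pt z (w + 3 - n) - z

theorem X800_eq (z : ℂ) (w s n : ℝ) : X800 z w s n =
    z + (cis (w * (Real.pi / 3) + s * (Real.pi / 3)) -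
      cis (w * (Real.pi / 3) - n * (Real.pi / 3))) := by
  have h1 : pt z (w + 3 - n) = z - cis (w * (Real.pi / 3) - n * (Real.pi / 3)) := by
    unfold pt
    rw [show (w + 3 - n) * (Real.pi / 3) =
      (w * (Real.pi / 3) - n * (Real.pi / 3)) + Real.pi by ring, cis_add_pi326]
    ring
  have h2 : pt z (w + s) = z + cis (w * (Real.pi / 3) + s * (Real.pi / 3)) := by
    unfold pt; rw [add_mul]
  unfold X800
  rw [h1, h2]; ring

theorem X800_zero (z : ℂ) (w : ℝ) : X800 z w 0 0 = z := by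
  rw [X800_eq]; simp

theorem X800_cont (z : ℂ) (w : ℝ) : Continuous fun p : ℝ × ℝ => X800 z w p.1 p.2 := by
  unfold X800
  have := continuous_pt z
  exact ((this.comp (by fun_prop)).add (this.comp (by fun_prop))).sub continuous_const

/-- two unit vectors at an angle which is no multiple of `π` -/
theorem cis_ne800 {x y : ℝ} (h : Real.sin (x - y) ≠ 0) : cis x ≠ cis y ∧ cis x ≠ -cis y := by
  have hs := Real.sin_sub x y
  constructor
  · intro h0
    have h1 := congrArg Complex.re h0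
    have h2 := congrArg Complex.im h0
    simp only [cis_re, cis_im] at h1 h2
    rw [h1, h2] at hs
    exact h (by rw [hs]; ring)
  · intro h0
    have h1 := congrArg Complex.re h0
    have h2 := congrArg Complex.im h0
    simp only [cis_re, cis_im, Complex.neg_re, Complex.neg_im] at h1 h2
    rw [h1, h2] at hs
    exact h (by rw [hs]; ring)

/-- **Two times.**  The letters carried at the times `w + s` and `w + 3 - n` are absent at `X800`. -/
theorem two_pt800 (h : Mx U) {z : ℂ} {w s n : ℝ} {P Q : Set (Fin k)} (h0 : 0 < s + n)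
    (h3 : s + n < 3) (hP : On U z P (w + s)) (hQ : On U z Q (w + 3 - n)) :
    ∀ i ∈ P ∪ Q, i ∉ Pal U (X800 z w s n) := by
  have hpi := Real.pi_pos
  set α := w * (Real.pi / 3) with hα
  have hsin : Real.sin ((α + s * (Real.pi / 3)) - (α - n * (Real.pi / 3))) ≠ 0 := by
    rw [show (α + s * (Real.pi / 3)) - (α - n * (Real.pi / 3)) = (s + n) * (Real.pi / 3) by ring]
    exact (Real.sin_pos_of_pos_of_lt_pi (by positivity) (by nlinarith)).ne'
  obtain ⟨o1, o2⟩ := cis_ne800 hsin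
  have e1 : pt z (w + s) = z + cis (α + s * (Real.pi / 3)) := by unfold pt; rw [add_mul]
  have e2 : pt z (w + 3 - n) = z - cis (α - n * (Real.pi / 3)) := by
    unfold pt
    rw [show (w + 3 - n) * (Real.pi / 3) = (α - n * (Real.pi / 3)) + Real.pi by rw [hα]; ring,
      cis_add_pi326]
    ring
  have eX := X800_eq z w s n
  rw [← hα] at eX
  have d1 : dist (pt z (w + s)) (X800 z w s n) = 1 := by
    rw [dist_eq_norm, e1, eX]
    have : z + cis (α + s * (Real.pi / 3)) -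
        (z + (cis (α + s * (Real.pi / 3)) - cis (α - n * (Real.pi / 3)))) =
        cis (α - n * (Real.pi / 3)) := by ring
    rw [this, norm_cis]
  have d2 : dist (pt z (w + 3 - n)) (X800 z w s n) = 1 := by
    rw [dist_eq_norm, e2, eX]
    have : z - cis (α - n * (Real.pi / 3)) -
        (z + (cis (α + s * (Real.pi / 3)) - cis (α - n * (Real.pi / 3)))) =
        -cis (α + s * (Real.pi / 3)) := by ring
    rw [this, norm_neg, norm_cis]
  have hXz : X800 z w s n ≠ z := by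
    intro h0; rw [eX] at h0
    exact o1 (by linear_combination h0)
  have hp := hP.notMem h d1 hXz (by
    intro h0; rw [eX, e1] at h0
    exact o2 (by linear_combination -h0))
  have hq := hQ.notMem h d2 hXz (by
    intro h0; rw [eX, e2] at h0
    exact o2 (by linear_combination h0))
  rintro i (hi | hi)
  · exact hp i hi
  · exact hq i hi

/-- the square of the distance to `X800`, minus one -/
def F800 (a : ℂ) (α s n : ℝ) : ℝ :=
  a.re ^ 2 + a.im ^ 2 + 1 - 2 * Real.cos ((s + n) * (Real.pi / 3)) -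
    2 * (a.re * (Real.cos (α + s * (Real.pi / 3)) - Real.cos (α - n * (Real.pi / 3))) +
      a.im * (Real.sin (α + s * (Real.pi / 3)) - Real.sin (α - n * (Real.pi / 3))))

theorem F800_eq (a : ℂ) (α s n : ℝ) : F800 a α s n =
    ‖a - (cis (α + s * (Real.pi / 3)) - cis (α - n * (Real.pi / 3)))‖ ^ 2 - 1 := by
  rw [Complex.sq_norm, Complex.normSq_apply]
  simp only [Complex.sub_re, Complex.sub_im, cis_re, cis_im]
  unfold F800
  have h3 : Real.cos ((s + n) * (Real.pi / 3)) =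
      Real.cos (α + s * (Real.pi / 3)) * Real.cos (α - n * (Real.pi / 3)) +
        Real.sin (α + s * (Real.pi / 3)) * Real.sin (α - n * (Real.pi / 3)) := by
    rw [← Real.cos_sub]; congr 1; ring
  rw [h3]
  have h1 := Real.sin_sq_add_cos_sq (α + s * (Real.pi / 3))
  have h2 := Real.sin_sq_add_cos_sq (α - n * (Real.pi / 3))
  nlinarith

theorem F800_cont (α : ℝ) : Continuous fun p : ℂ × ℝ × ℝ => F800 p.1 α p.2.1 p.2.2 := by
  unfold F800
  have h1 : Continuous fun p : ℂ × ℝ × ℝ => p.1.re := Complex.continuous_re.comp continuous_fst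
  have h2 : Continuous fun p : ℂ × ℝ × ℝ => p.1.im := Complex.continuous_im.comp continuous_fst
  fun_prop

/-- the derivatives -/
def D800 (a : ℂ) (s n θ : ℝ) : ℝ :=
  (Real.pi / 3) * (2 * Real.sin ((s + n) * (Real.pi / 3)) -
    2 * (-(a.re * Real.sin θ) + a.im * Real.cos θ))

theorem F800_deriv_s (a : ℂ) (α s n : ℝ) :
    HasDerivAt (fun s => F800 a α s n) (D800 a s n (α + s * (Real.pi / 3))) s := by
  unfold F800 D800
  have h1 : HasDerivAt (fun s : ℝ => α + s * (Real.pi / 3)) (Real.pi / 3) s := by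
    have := ((hasDerivAt_id s).mul_const (Real.pi / 3)).const_add α
    simpa using this
  have h2 : HasDerivAt (fun s : ℝ => (s + n) * (Real.pi / 3)) (Real.pi / 3) s := by
    have := ((hasDerivAt_id s).add_const n).mul_const (Real.pi / 3)
    simpa using this
  have h3 := ((h2.cos.const_mul 2).const_sub (a.re ^ 2 + a.im ^ 2 + 1)).sub
    ((((h1.cos.sub_const (Real.cos (α - n * (Real.pi / 3)))).const_mul a.re).add
      ((h1.sin.sub_const (Real.sin (α - n * (Real.pi / 3)))).const_mul a.im)).const_mul 2)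
  refine h3.congr_deriv ?_
  ring

theorem F800_deriv_n (a : ℂ) (α s n : ℝ) :
    HasDerivAt (fun n => F800 a α s n) (D800 a s n (α - n * (Real.pi / 3))) n := by
  unfold F800 D800
  have h1 : HasDerivAt (fun n : ℝ => α - n * (Real.pi / 3)) (-(Real.pi / 3)) n := by
    have := ((hasDerivAt_id n).mul_const (Real.pi / 3)).const_sub α
    simpa using this
  have h2 : HasDerivAt (fun n : ℝ => (s + n) * (Real.pi / 3)) (Real.pi / 3) n := by
    have := ((hasDerivAt_id n).const_add s).mul_const (Real.pi / 3)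
    simpa using this
  have h3 := ((h2.cos.const_mul 2).const_sub (a.re ^ 2 + a.im ^ 2 + 1)).sub
    ((((h1.cos.const_sub (Real.cos (α + s * (Real.pi / 3)))).const_mul a.re).add
      ((h1.sin.const_sub (Real.sin (α + s * (Real.pi / 3)))).const_mul a.im)).const_mul 2)
  refine h3.congr_deriv ?_
  ring

/-- near a point `a₀` on the side `κ` of the ray both derivatives have the sign `-κ` -/
theorem D800_sign {a₀ : ℂ} {α κ : ℝ} (h0 : 0 < κ * ip (Complex.I * cis α) a₀) :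
    ∃ δ > 0, ∀ a : ℂ, dist a a₀ < δ → ∀ s n : ℝ, |s| < δ → |n| < δ →
      κ * D800 a s n (α + s * (Real.pi / 3)) < 0 ∧ κ * D800 a s n (α - n * (Real.pi / 3)) < 0 := by
  have hpi := Real.pi_pos
  have hre : Continuous fun p : ℂ × ℝ × ℝ => p.1.re := Complex.continuous_re.comp continuous_fst
  have him : Continuous fun p : ℂ × ℝ × ℝ => p.1.im := Complex.continuous_im.comp continuous_fst
  have c1 : Continuous fun p : ℂ × ℝ × ℝ =>
      κ * D800 p.1 p.2.1 p.2.2 (α + p.2.1 * (Real.pi / 3)) := by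
    unfold D800; fun_prop
  have c2 : Continuous fun p : ℂ × ℝ × ℝ =>
      κ * D800 p.1 p.2.1 p.2.2 (α - p.2.2 * (Real.pi / 3)) := by
    unfold D800; fun_prop
  have hval : κ * D800 a₀ 0 0 α < 0 := by
    unfold D800
    unfold ip at h0
    simp only [Complex.mul_re, Complex.mul_im, Complex.I_re, Complex.I_im, cis_re, cis_im,
      zero_mul, one_mul, zero_sub, zero_add] at h0
    rw [add_zero, zero_mul, Real.sin_zero]
    nlinarith
  have e1 : ∀ᶠ p : ℂ × ℝ × ℝ in 𝓝 (a₀, 0, 0),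
      κ * D800 p.1 p.2.1 p.2.2 (α + p.2.1 * (Real.pi / 3)) < 0 :=
    c1.continuousAt.eventually (Iio_mem_nhds (by simpa using hval))
  have e2 : ∀ᶠ p : ℂ × ℝ × ℝ in 𝓝 (a₀, 0, 0),
      κ * D800 p.1 p.2.1 p.2.2 (α - p.2.2 * (Real.pi / 3)) < 0 :=
    c2.continuousAt.eventually (Iio_mem_nhds (by simpa using hval))
  obtain ⟨δ, hδ, hb⟩ := Metric.eventually_nhds_iff.1 (e1.and e2)
  refine ⟨δ, hδ, fun a ha s n hs hn => ?_⟩
  have := hb (y := (a, s, n)) (by
    rw [Prod.dist_eq, Prod.dist_eq]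
    refine max_lt ha (max_lt ?_ ?_)
    · simpa [Real.dist_eq] using hs
    · simpa [Real.dist_eq] using hn)
  exact this

attribute [local irreducible] F800 D800

/-- the distance function decreases in both times -/
theorem mono800 {a₀ : ℂ} {α κ δ1 δ : ℝ}
    (hD : ∀ a : ℂ, dist a a₀ < δ1 → ∀ s n : ℝ, |s| < δ1 → |n| < δ1 →
      κ * D800 a s n (α + s * (Real.pi / 3)) < 0 ∧ κ * D800 a s n (α - n * (Real.pi / 3)) < 0)
    (hδ : δ < δ1) {a : ℂ} (ha : dist a a₀ < δ1) :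
    (∀ n ∈ Icc (-δ) δ, StrictAntiOn (fun s => κ * F800 a α s n) (Icc (-δ) δ)) ∧
      ∀ s ∈ Icc (-δ) δ, StrictAntiOn (fun n => κ * F800 a α s n) (Icc (-δ) δ) := by
  constructor
  · intro n hn
    have hd : ∀ s : ℝ, HasDerivAt (fun s => κ * F800 a α s n)
        (κ * D800 a s n (α + s * (Real.pi / 3))) s := fun s => (F800_deriv_s a α s n).const_mul κ
    refine strictAntiOn_of_deriv_neg (convex_Icc _ _)
      (fun s _ => (hd s).continuousAt.continuousWithinAt) ?_
    intro s hs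
    rw [interior_Icc] at hs
    rw [(hd s).deriv]
    exact (hD a ha s n (by rw [abs_lt]; constructor <;> linarith [hs.1, hs.2])
      (by rw [abs_lt]; constructor <;> linarith [hn.1, hn.2])).1
  · intro s hs
    have hd : ∀ n : ℝ, HasDerivAt (fun n => κ * F800 a α s n)
        (κ * D800 a s n (α - n * (Real.pi / 3))) n := fun n => (F800_deriv_n a α s n).const_mul κ
    refine strictAntiOn_of_deriv_neg (convex_Icc _ _)
      (fun n _ => (hd n).continuousAt.continuousWithinAt) ?_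
    intro n hn
    rw [interior_Icc] at hn
    rw [(hd n).deriv]
    exact (hD a ha s n (by rw [abs_lt]; constructor <;> linarith [hs.1, hs.2])
      (by rw [abs_lt]; constructor <;> linarith [hn.1, hn.2])).2

theorem F800_zero (a : ℂ) (α : ℝ) : F800 a α 0 0 = ‖a‖ ^ 2 - 1 := by
  rw [F800_eq]
  simp

/-- the hypotheses on the two sets of times -/
def Tms800 (δ : ℝ) (P Q : Set ℝ) : Prop :=
  (∀ s t, 0 < s → s < t → t < δ → ∃ r ∈ P, s < r ∧ r < t) ∧ IsOpen Q ∧
    ∀ η > 0, ∃ r ∈ Q, 0 < r ∧ r < η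

/-- the crossing for one point `a` -/
theorem cross_pt800 {a : ℂ} {α κ δ : ℝ} (hκ : κ = 1 ∨ κ = -1) (hδ : 0 < δ)
    (h1 : ∀ n ∈ Icc (-δ) δ, StrictAntiOn (fun s => κ * F800 a α s n) (Icc (-δ) δ))
    (h2 : ∀ s ∈ Icc (-δ) δ, StrictAntiOn (fun n => κ * F800 a α s n) (Icc (-δ) δ))
    (ha : 0 < κ * (‖a‖ - 1)) (g1 : κ * F800 a α δ 0 < 0) (g2 : κ * F800 a α 0 δ < 0)
    {P Q : Set ℝ} (hPQ : Tms800 δ P Q ∨ Tms800 δ Q P) :
    ∃ s ∈ P, ∃ n ∈ Q, 0 < s ∧ s < δ ∧ 0 < n ∧ n < δ ∧ F800 a α s n = 0 := by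
  have hκ2 : κ * κ = 1 := by rcases hκ with rfl | rfl <;> norm_num
  have hc : Continuous fun p : ℝ × ℝ => κ * F800 a α p.1 p.2 :=
    continuous_const.mul ((F800_cont α).comp (continuous_const.prodMk continuous_id))
  have h00 : 0 < κ * F800 a α 0 0 := by
    rw [F800_zero]
    have h3 : 0 ≤ ‖a‖ := norm_nonneg a
    rcases hκ with rfl | rfl
    · nlinarith
    · nlinarith
  have hfin : ∀ s n, κ * F800 a α s n = 0 → F800 a α s n = 0 := by
    intro s n hz
    rcases mul_eq_zero.1 hz with h3 | h3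
    · rw [h3] at hκ2; norm_num at hκ2
    · exact h3
  rcases hPQ with ⟨hP, hQo, hQ⟩ | ⟨hQ, hPo, hP⟩
  · obtain ⟨s, hs, n, hn, a1, a2, a3, a4, a5⟩ := hit_abs800 (F := fun s n => κ * F800 a α s n)
      hc hδ h1 h2 hP hQo hQ h00 g1
    exact ⟨s, hs, n, hn, a1, a2, a3, a4, hfin s n a5⟩
  · obtain ⟨n, hn, s, hs, a1, a2, a3, a4, a5⟩ := hit_abs800 (F := fun n s => κ * F800 a α s n)
      (hc.comp continuous_swap) hδ h2 h1 hQ hPo hP h00 g2
    exact ⟨s, hs, n, hn, a3, a4, a1, a2, hfin s n a5⟩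

/-- the crossing, for the two roles of the times -/
theorem cross800 {a₀ : ℂ} (ha₀ : ‖a₀‖ = 1) {α κ : ℝ} (hκ : κ = 1 ∨ κ = -1)
    (h0 : 0 < κ * ip (Complex.I * cis α) a₀) {ε : ℝ} (hε : 0 < ε) :
    ∃ δ > 0, δ ≤ ε ∧ ∀ᶠ a in 𝓝 a₀, 0 < κ * (‖a‖ - 1) → ∀ P Q : Set ℝ,
      (Tms800 δ P Q ∨ Tms800 δ Q P) →
      ∃ s ∈ P, ∃ n ∈ Q, 0 < s ∧ s < δ ∧ 0 < n ∧ n < δ ∧ F800 a α s n = 0 := by
  obtain ⟨δ1, hδ1, hD⟩ := D800_sign h0
  obtain ⟨δ, hδp, hδε, hδ1'⟩ : ∃ δ : ℝ, 0 < δ ∧ δ ≤ ε ∧ δ < δ1 :=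
    ⟨min ε (δ1 / 2), lt_min hε (by linarith), min_le_left _ _,
      lt_of_le_of_lt (min_le_right _ _) (by linarith)⟩
  have h00 : (0 : ℝ) ∈ Icc (-δ) δ := ⟨by linarith, hδp.le⟩
  have hδδ : δ ∈ Icc (-δ) δ := ⟨by linarith, le_refl _⟩
  have ha0 : dist a₀ a₀ < δ1 := by rw [dist_self]; exact hδ1
  obtain ⟨m1, m2⟩ := mono800 hD hδ1' ha0
  have hs0 : κ * F800 a₀ α δ 0 < 0 := by
    have := m1 0 h00 h00 hδδ hδp
    simp only at this
    rw [F800_zero, ha₀] at this
    linarith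
  have hn0 : κ * F800 a₀ α 0 δ < 0 := by
    have := m2 0 h00 h00 hδδ hδp
    simp only at this
    rw [F800_zero, ha₀] at this
    linarith
  have c1 : Continuous fun a : ℂ => κ * F800 a α δ 0 :=
    continuous_const.mul (Continuous.comp (g := fun p : ℂ × ℝ × ℝ => F800 p.1 α p.2.1 p.2.2)
      (f := fun a : ℂ => (a, δ, (0 : ℝ))) (F800_cont α) (by fun_prop))
  have c2 : Continuous fun a : ℂ => κ * F800 a α 0 δ :=
    continuous_const.mul (Continuous.comp (g := fun p : ℂ × ℝ × ℝ => F800 p.1 α p.2.1 p.2.2)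
      (f := fun a : ℂ => (a, (0 : ℝ), δ)) (F800_cont α) (by fun_prop))
  refine ⟨δ, hδp, hδε, ?_⟩
  filter_upwards [c1.continuousAt.eventually (Iio_mem_nhds hs0),
    c2.continuousAt.eventually (Iio_mem_nhds hn0), Metric.ball_mem_nhds a₀ hδ1]
    with a g1 g2 g3 g4 P Q hPQ
  obtain ⟨q1, q2⟩ := mono800 hD hδ1' (a := a) g3
  exact cross_pt800 hκ hδp q1 q2 g4 g1 g2 hPQ

/-- **Mixed letters.**  Letters of `A` are carried by `S(z)` just after `w`, letters of `B` just before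
`w + 3`; one of the two families occurs at times which are dense, the other one at times which
accumulate. -/
def Mix800 (U : Fin k → Set ℂ) (z : ℂ) (w : ℝ) (A B : Set (Set (Fin k))) : Prop :=
  ∃ δ > 0, ((∀ s t, 0 < s → s < t → t < δ → ∃ r, (∃ P ∈ A, On U z P (w + r)) ∧ s < r ∧ r < t) ∧
      ∀ η > 0, ∃ r, (∃ Q ∈ B, On U z Q (w + 3 - r)) ∧ 0 < r ∧ r < η) ∨
    ((∀ s t, 0 < s → s < t → t < δ → ∃ r, (∃ Q ∈ B, On U z Q (w + 3 - r)) ∧ s < r ∧ r < t) ∧
      ∀ η > 0, ∃ r, (∃ P ∈ A, On U z P (w + r)) ∧ 0 < r ∧ r < η)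

/-- **The cusp rule, wild form.**  Every circle about a point near `V`, on the right side of `S(z)`,
meets near `z` a point without the letters of a mixed pair. -/
theorem Irr.cusp_sees800 (h : Irr U T) {z V : ℂ} {w κ : ℝ} {A B : Set (Set (Fin k))}
    (hm : Mix800 U z w A B) (hκ : κ = 1 ∨ κ = -1) (hV : dist V z = 1)
    (hip : 0 < κ * ip (Complex.I * cis (w * (Real.pi / 3))) (V - z)) {N : Set ℂ} (hN : N ∈ 𝓝 z) :
    ∀ᶠ v in 𝓝 V, 0 < κ * (dist v z - 1) →
      ∃ P ∈ A, ∃ Q ∈ B, ∃ x ∈ N, dist x v = 1 ∧ T x ⊆ T z \ (P ∪ Q) := by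
  obtain ⟨δ0, hδ0, hm⟩ := hm
  -- the neighbourhood of `z`
  have hc := X800_cont z w
  have e1 : ∀ᶠ p : ℝ × ℝ in 𝓝 (0, 0), X800 z w p.1 p.2 ∈ N ∧ T (X800 z w p.1 p.2) ⊆ T z := by
    have h2 := hc.tendsto (0, 0)
    simp only [X800_zero] at h2
    exact (h2.eventually hN).and (h2.eventually (h.nhd z))
  obtain ⟨δ1, hδ1, hb⟩ := Metric.eventually_nhds_iff.1 e1
  obtain ⟨δ, hδ, hδε, hcr⟩ := cross800 (a₀ := V - z) (by rw [← dist_eq_norm]; exact hV) hκ hip
    (ε := min δ0 (min δ1 1)) (lt_min hδ0 (lt_min hδ1 one_pos))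
  have hδ0' : δ ≤ δ0 := hδε.trans (min_le_left _ _)
  have hδ1' : δ ≤ δ1 := hδε.trans ((min_le_right _ _).trans (min_le_left _ _))
  have hδ2' : δ ≤ 1 := hδε.trans ((min_le_right _ _).trans (min_le_right _ _))
  have hts : Tendsto (fun v : ℂ => v - z) (𝓝 V) (𝓝 (V - z)) :=
    (continuous_id.sub continuous_const).tendsto V
  filter_upwards [hts.eventually hcr] with v hv hvz
  have hoA : IsOpen {r : ℝ | ∃ P ∈ A, On U z P (w + r)} := isOpen_On' z A w
  have hoB : IsOpen {r : ℝ | ∃ Q ∈ B, On U z Q (w + 3 - r)} := by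
    have h1 : {r : ℝ | ∃ Q ∈ B, On U z Q (w + 3 - r)} =
        (fun r : ℝ => -r) ⁻¹' {r : ℝ | ∃ Q ∈ B, On U z Q (w + 3 + r)} := by
      ext r; simp [sub_eq_add_neg]
    rw [h1]
    exact (isOpen_On' z B (w + 3)).preimage continuous_neg
  obtain ⟨s, ⟨P, hPA, hs⟩, n, ⟨Q, hQB, hn⟩, s1, s2, n1, n2, hF⟩ :=
    hv (by rw [← dist_eq_norm]; exact hvz) {r : ℝ | ∃ P ∈ A, On U z P (w + r)}
      {r : ℝ | ∃ Q ∈ B, On U z Q (w + 3 - r)} (by
        rcases hm with ⟨hA, hB⟩ | ⟨hB, hA⟩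
        · refine Or.inl ⟨fun s t a b c => ?_, hoB, fun η hη => ?_⟩
          · obtain ⟨r, hr, d, e⟩ := hA s t a b (by linarith)
            exact ⟨r, hr, d, e⟩
          · obtain ⟨r, hr, d, e⟩ := hB η hη
            exact ⟨r, hr, d, e⟩
        · refine Or.inr ⟨fun s t a b c => ?_, hoA, fun η hη => ?_⟩
          · obtain ⟨r, hr, d, e⟩ := hB s t a b (by linarith)
            exact ⟨r, hr, d, e⟩
          · obtain ⟨r, hr, d, e⟩ := hA η hη
            exact ⟨r, hr, d, e⟩)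
  obtain ⟨hxN, hxT⟩ := hb (y := (s, n)) (by
    rw [Prod.dist_eq, Real.dist_eq, Real.dist_eq, sub_zero, sub_zero, abs_of_pos s1, abs_of_pos n1]
    exact max_lt (by linarith) (by linarith))
  refine ⟨P, hPA, Q, hQB, X800 z w s n, hxN, ?_, fun i hi => ⟨hxT hi, fun hcon => ?_⟩⟩
  · have h1 := F800_eq (v - z) (w * (Real.pi / 3)) s n
    rw [hF] at h1
    have h2 : dist v (X800 z w s n) = ‖v - z - (cis (w * (Real.pi / 3) + s * (Real.pi / 3)) -
        cis (w * (Real.pi / 3) - n * (Real.pi / 3)))‖ := by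
      rw [dist_eq_norm, X800_eq]; congr 1; ring
    rw [← h2] at h1
    have h3 := dist_nonneg (x := v) (y := X800 z w s n)
    rw [dist_comm]
    nlinarith
  · exact two_pt800 h.mx (by linarith) (by linarith) hs hn i hcon (h.sub _ hi)

/-- **One colour left**: absent near `V` on this side of `S(z)`. -/
theorem Irr.cusp_far800 (h : Irr U T) {z V : ℂ} {w κ : ℝ} {A B : Set (Set (Fin k))} {m : Fin k}
    (hm : Mix800 U z w A B) (hT : ∀ P ∈ A, ∀ Q ∈ B, T z ⊆ insert m (P ∪ Q))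
    (hκ : κ = 1 ∨ κ = -1) (hV : dist V z = 1)
    (hip : 0 < κ * ip (Complex.I * cis (w * (Real.pi / 3))) (V - z)) :
    ∀ᶠ v in 𝓝 V, 0 < κ * (dist v z - 1) → m ∉ Pal U v := by
  filter_upwards [h.cusp_sees800 hm hκ hV hip univ_mem] with v hv hvz
  obtain ⟨P, hP, Q, hQ, x, -, hx, hxT⟩ := hv hvz
  refine h.mx.notMem' (h.mem_of_single fun i hi => ?_) hx
  obtain ⟨h1, h2⟩ := hxT hi
  rcases hT P hP Q hQ h1 with h3 | h3
  · exact h3
  · exact absurd h3 h2

/-- no colour left is impossible -/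
theorem Irr.cusp_none800 (h : Irr U T) {z : ℂ} {w : ℝ} {A B : Set (Set (Fin k))}
    (hm : Mix800 U z w A B) (hT : ∀ P ∈ A, ∀ Q ∈ B, T z ⊆ P ∪ Q) : False := by
  have hV : dist (z + Complex.I * cis (w * (Real.pi / 3))) z = 1 := by
    rw [dist_eq_norm, add_sub_cancel_left, norm_mul, Complex.norm_I, norm_cis, mul_one]
  have hip : 0 < (1 : ℝ) * ip (Complex.I * cis (w * (Real.pi / 3)))
      (z + Complex.I * cis (w * (Real.pi / 3)) - z) := by
    rw [add_sub_cancel_left, one_mul]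
    unfold ip
    simp only [Complex.mul_re, Complex.mul_im, Complex.I_re, Complex.I_im, cis_re, cis_im,
      zero_mul, one_mul, zero_sub, zero_add]
    nlinarith [Real.sin_sq_add_cos_sq (w * (Real.pi / 3))]
  have h1 := h.cusp_sees800 hm (Or.inl rfl) hV hip univ_mem
  have h2 : ∃ᶠ v in 𝓝 (z + Complex.I * cis (w * (Real.pi / 3))), 1 < dist v z := by
    rw [frequently_iff]
    intro N hN
    obtain ⟨-, h3⟩ := radial824 hV
    exact (h3.and_eventually hN).exists.imp fun x hx => ⟨hx.2, hx.1⟩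
  obtain ⟨v, hv, hv'⟩ := (h2.and_eventually h1).exists
  obtain ⟨P, hP, Q, hQ, x, -, -, hxT⟩ := hv' (by linarith)
  obtain ⟨i, hi⟩ := h.ne x
  exact (hxT hi).2 (hT P hP Q hQ (hxT hi).1)

/-- **Two colours left.** -/
theorem Irr.cusp_two800 (h : Irr U T) {z V : ℂ} {w κ : ℝ} {A B : Set (Set (Fin k))} {p q : Fin k}
    (hm : Mix800 U z w A B) (hT : ∀ P ∈ A, ∀ Q ∈ B, T z ⊆ {p, q} ∪ (P ∪ Q))
    (hκ : κ = 1 ∨ κ = -1) (hV : dist V z = 1)
    (hip : 0 < κ * ip (Complex.I * cis (w * (Real.pi / 3))) (V - z)) {N : Set ℂ} (hN : N ∈ 𝓝 z) :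
    ∀ᶠ v in 𝓝 V, 0 < κ * (dist v z - 1) → ∃ x ∈ N, dist x v = 1 ∧ T x ⊆ {p, q} := by
  filter_upwards [h.cusp_sees800 hm hκ hV hip hN] with v hv hvz
  obtain ⟨P, hP, Q, hQ, x, hxN, hx, hxT⟩ := hv hvz
  refine ⟨x, hxN, hx, fun i hi => ?_⟩
  obtain ⟨h1, h2⟩ := hxT hi
  rcases hT P hP Q hQ h1 with h3 | h3
  · exact h3
  · exact absurd h3 h2

/-- **Mixed rays with the same single colour left are not on both sides of a point with this colour.**
In particular mixed rays of one colour do not positively span the plane. -/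
theorem Irr.mix_not_both800 (h : Irr U T) {z V : ℂ} {w w' : ℝ} {A B A' B' : Set (Set (Fin k))}
    {m : Fin k} (hm : Mix800 U z w A B) (hT : ∀ P ∈ A, ∀ Q ∈ B, T z ⊆ insert m (P ∪ Q))
    (hm' : Mix800 U z w' A' B') (hT' : ∀ P ∈ A', ∀ Q ∈ B', T z ⊆ insert m (P ∪ Q))
    (hV : dist V z = 1) (hmV : m ∈ Pal U V)
    (hip : 0 < ip (Complex.I * cis (w * (Real.pi / 3))) (V - z))
    (hip' : ip (Complex.I * cis (w' * (Real.pi / 3))) (V - z) < 0) : False := by
  refine h.mx.excl_col824 (v := z) hmV ?_ ?_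
  · filter_upwards [h.cusp_far800 hm hT (Or.inl rfl) hV (by linarith)] with v hv hvz
    exact hv (by linarith)
  · filter_upwards [h.cusp_far800 hm' hT' (Or.inr rfl) hV (by linarith)] with v hv hvz
    exact hv (by linarith)

/-- the direction of the antipodal slot -/
theorem cis_three800 (w : ℝ) : cis ((w + 3) * (Real.pi / 3)) = -cis (w * (Real.pi / 3)) := by
  rw [show (w + 3) * (Real.pi / 3) = w * (Real.pi / 3) + Real.pi by ring, cis_add_pi326]

/-- **The antipodal rule with one colour left, wild form**: the two mixed pairs of a slot and its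
antipode do not both leave the colour `m`. -/
theorem Irr.mix_anti800 (h : Irr U T) {z V : ℂ} {w : ℝ} {A B A' B' : Set (Set (Fin k))}
    {m : Fin k} (hm : Mix800 U z w A B) (hT : ∀ P ∈ A, ∀ Q ∈ B, T z ⊆ insert m (P ∪ Q))
    (hm' : Mix800 U z (w + 3) A' B') (hT' : ∀ P ∈ A', ∀ Q ∈ B', T z ⊆ insert m (P ∪ Q))
    (hV : dist V z = 1) (hmV : m ∈ Pal U V)
    (hip : ip (Complex.I * cis (w * (Real.pi / 3))) (V - z) ≠ 0) : False := by
  have e : ip (Complex.I * cis ((w + 3) * (Real.pi / 3))) (V - z) =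
      -ip (Complex.I * cis (w * (Real.pi / 3))) (V - z) := by
    rw [cis_three800]
    unfold ip
    simp only [Complex.mul_re, Complex.mul_im, Complex.neg_re, Complex.neg_im]
    ring
  rcases lt_or_gt_of_ne hip with h1 | h1
  · exact h.mix_not_both800 hm' hT' hm hT hV hmV (by rw [e]; linarith) h1
  · exact h.mix_not_both800 hm hT hm' hT' hV hmV h1 (by rw [e]; linarith)

/-- **A mixed ray with the single colour `m` towards an exact `mb`-point**: outside there is only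
`b` (away from it: inside there is only `b`). -/
theorem Irr.mix_side800 (h : Irr U T) {z V : ℂ} {w κ : ℝ} {A B : Set (Set (Fin k))} {m b : Fin k}
    (hm : Mix800 U z w A B) (hT : ∀ P ∈ A, ∀ Q ∈ B, T z ⊆ insert m (P ∪ Q))
    (hκ : κ = 1 ∨ κ = -1) (hV : dist V z = 1) (hVT : T V ⊆ {m, b})
    (hip : 0 < κ * ip (Complex.I * cis (w * (Real.pi / 3))) (V - z)) :
    ∀ᶠ v in 𝓝 V, 0 < κ * (dist v z - 1) → T v = {b} := by
  filter_upwards [h.cusp_far800 hm hT hκ hV hip, h.nhd V] with v hv hv' hvz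
  exact h.single429 (hv'.trans hVT) (hv hvz)

/-- letters which are carried on both sides are mixed -/
theorem mix_of_ev800 {z : ℂ} {w : ℝ} {A B : Set (Set (Fin k))}
    (hA : ∀ᶠ s : ℝ in 𝓝[>] 0, ∃ P ∈ A, On U z P (w + s))
    (hB : ∃ᶠ s : ℝ in 𝓝[>] 0, ∃ Q ∈ B, On U z Q (w + 3 - s)) : Mix800 U z w A B := by
  obtain ⟨δ, hδ, hd⟩ := mem_nhdsGT_iff_exists_Ioo_subset.1 hA
  refine ⟨δ, hδ, Or.inl ⟨fun s t h1 h2 h3 => ?_, fun η hη => ?_⟩⟩
  · exact ⟨(s + t) / 2, hd ⟨by linarith, by linarith⟩, by linarith, by linarith⟩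
  · obtain ⟨r, hr, hr'⟩ := (hB.and_eventually (Ioo_mem_nhdsGT hη)).exists
    exact ⟨r, hr, hr'.1, hr'.2⟩

/-- the same, the letters just before the antipodal slot are the eventual ones -/
theorem mix_of_ev800' {z : ℂ} {w : ℝ} {A B : Set (Set (Fin k))}
    (hA : ∃ᶠ s : ℝ in 𝓝[>] 0, ∃ P ∈ A, On U z P (w + s))
    (hB : ∀ᶠ s : ℝ in 𝓝[>] 0, ∃ Q ∈ B, On U z Q (w + 3 - s)) : Mix800 U z w A B := by
  obtain ⟨δ, hδ, hd⟩ := mem_nhdsGT_iff_exists_Ioo_subset.1 hB
  refine ⟨δ, hδ, Or.inr ⟨fun s t h1 h2 h3 => ?_, fun η hη => ?_⟩⟩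
  · exact ⟨(s + t) / 2, hd ⟨by linarith, by linarith⟩, by linarith, by linarith⟩
  · obtain ⟨r, hr, hr'⟩ := (hA.and_eventually (Ioo_mem_nhdsGT hη)).exists
    exact ⟨r, hr, hr'.1, hr'.2⟩

theorem On_six800 {z : ℂ} {P : Set (Fin k)} {t : ℝ} (h : On U z P t) : On U z P (t + 6) := by
  have h1 : ∀ᶠ s in 𝓝 (t + 6), P ⊆ Pal U (pt z (s - 6)) := by
    have h2 : Tendsto (fun s : ℝ => s - 6) (𝓝 (t + 6)) (𝓝 t) := by
      have h3 : Continuous fun s : ℝ => s - 6 := by fun_prop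
      have h4 := h3.tendsto (t + 6)
      rwa [add_sub_cancel_right] at h4
    exact h2.eventually h
  filter_upwards [h1] with s hs
  rw [show s = s - 6 + 6 by ring, pt_six]
  exact hs

/-- **The base time of an event.**  Old letters at the times of `O`, new letters at the times of `N`;
at a base time `b` both mixed pairs of every slot and its antipode occur: new letters just after the
slot and old letters just before the antipodal slot, on both rays. -/
theorem base_mix800 {O N : Set ℝ} (hO : IsOpen O) (hN : IsOpen N) (hON : ∀ t ∈ O, t ∉ N) {m m' : ℝ}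
    (hm : m ∈ O) (hm' : m' ∈ N) (hlt : m < m')
    (hd : ∀ s t, m < s → s < t → t < m' → ∃ r, (r ∈ O ∨ r ∈ N) ∧ s < r ∧ r < t) :
    ∃ b, m < b ∧ b < m' ∧ ∀ (U : Fin k → Set ℂ) (z : ℂ) (w : ℝ) (A₀ A₁ B₀ B₁ : Set (Set (Fin k))),
      (∀ t ∈ O, (∃ P ∈ A₀, On U z P (w + t)) ∧ ∃ Q ∈ B₀, On U z Q (w + 3 + t)) →
      (∀ t ∈ N, (∃ P ∈ A₁, On U z P (w + t)) ∧ ∃ Q ∈ B₁, On U z Q (w + 3 + t)) →
      Mix800 U z (w + b) A₁ B₀ ∧ Mix800 U z (w + 3 + b) B₁ A₀ := by
  obtain ⟨b, hb1, hb2, hb3, hb4⟩ := base_time hO hN hON hm hm' hlt hd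
  refine ⟨b, hb1, hb2, fun U z w A₀ A₁ B₀ B₁ h0 h1 => ?_⟩
  have hden : ∀ s t, 0 < s → s < t → t < b - m → ∃ r, b - r ∈ O ∧ s < r ∧ r < t := by
    intro s t a1 a2 a3
    obtain ⟨r, hr, c1, c2⟩ := hb3 (b - t) (b - s) (by linarith) (by linarith) (by linarith)
    exact ⟨b - r, by rw [sub_sub_cancel]; exact hr, by linarith, by linarith⟩
  have hacc : ∀ η > 0, ∃ r, b + r ∈ N ∧ 0 < r ∧ r < η := by
    intro η hη
    obtain ⟨r, hr, c1, c2⟩ := hb4 η hη
    exact ⟨r - b, by rw [add_sub_cancel]; exact hr, by linarith, by linarith⟩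
  constructor
  · refine ⟨b - m, by linarith, Or.inr ⟨fun s t a1 a2 a3 => ?_, fun η hη => ?_⟩⟩
    · obtain ⟨r, hr, c1, c2⟩ := hden s t a1 a2 a3
      obtain ⟨Q, hQ, hQ'⟩ := (h0 _ hr).2
      exact ⟨r, ⟨Q, hQ, by rw [show w + b + 3 - r = w + 3 + (b - r) by ring]; exact hQ'⟩, c1, c2⟩
    · obtain ⟨r, hr, c1, c2⟩ := hacc η hη
      obtain ⟨P, hP, hP'⟩ := (h1 _ hr).1
      exact ⟨r, ⟨P, hP, by rw [add_assoc]; exact hP'⟩, c1, c2⟩
  · refine ⟨b - m, by linarith, Or.inr ⟨fun s t a1 a2 a3 => ?_, fun η hη => ?_⟩⟩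
    · obtain ⟨r, hr, c1, c2⟩ := hden s t a1 a2 a3
      obtain ⟨P, hP, hP'⟩ := (h0 _ hr).1
      exact ⟨r, ⟨P, hP, by
        rw [show w + 3 + b + 3 - r = w + (b - r) + 6 by ring]; exact On_six800 hP'⟩, c1, c2⟩
    · obtain ⟨r, hr, c1, c2⟩ := hacc η hη
      obtain ⟨Q, hQ, hQ'⟩ := (h1 _ hr).2
      exact ⟨r, ⟨Q, hQ, by rw [add_assoc (w + 3)]; exact hQ'⟩, c1, c2⟩

end Vale.Agent.P032.Six
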