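import Vale.Agent.P032.H961.DH3
import Vale.Agent.P032.H800.XC

/-!
# P032, row H of the degree theorem without complementary palettes

`rowHC : RowHC` : the proof of `rowD2` (H961) uses only `Irr` and the degree hypothesis.
-/

open Set Filter Topology Metric

noncomputable section

namespace Vale.Agent.P032.H800

open Vale.Agent.P032.Six Vale.Agent.P032.S5.H767 Vale.Agent.P032.H961 Vale.Agent.P032.H383

/-- **row H** -/
theorem rowHC : RowHC := by
  intro U T hdf n3 V a b c d hV hp y hy B hB
  have h := hdf.irr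
  obtain ⟨s, t, hst, hst1, -, hall, hs, ht, hord⟩ := one_arc169 h hV hp
    fun y1 y2 y3 => n3 V y1 y2 y3 hV.ncard.ge
  have hyV : dist y V = 1 := (H383.closure_cases h hV hp hy).1.1
  have hyE : y ∈ closure (Ex T V {a, b}) := by
    rw [← xa_eq h hV]
    exact hy
  have key : ∀ θ o : ℝ, ((o = 1 ∧ θ = s) ∨ (o = -1 ∧ θ = t)) → y = pt V θ → False := by
    intro θ o ho hθ
    have A := ar_of h hV hst hst1 hall hs.1 ht.1 hord ho (by
      rw [← hθ]
      exact fun y1 y2 y3 => n3 y y1 y2 y3 hB.card.ge)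
    have e0 : θ + o * 0 = θ := by ring
    refine A.not_harm hV ?_ (B := B) ?_
    · show pt V (θ + o * 0) ∈ _
      rw [e0, ← hθ]
      exact hyE
    · show Six.Harm T (pt V (θ + o * 0)) B
      rw [e0, ← hθ]
      exact hB
  rcases hord y hyV hB.card.ge with h1 | h1
  · exact key s 1 (Or.inl ⟨rfl, rfl⟩) h1
  · exact key t (-1) (Or.inr ⟨rfl, rfl⟩) h1

end Vale.Agent.P032.H800
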