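import Vale.Agent.P032.H800.XDeg

/-!
# P032, the degree theorem: only one pair is plain-free

World `XG U T` (no split points, degree at most two).  `XG.not_both` : the two pairs of a two-pair
point are not both without plain ends.  `XG.strong` : if the pair `a, b` has no plain ends, no point
with three colours of `S(V)` has both colours.
-/

open Set Filter Topology Metric

noncomputable section

namespace Vale.Agent.P032.H800

open Vale.Agent.P032.Six Vale.Agent.P032.S5.H767 Vale.Agent.P032.H961 Vale.Agent.P032.H383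

variable {U : Fin 6 → Set ℂ} {T : ℂ → Set (Fin 6)} {V y : ℂ} {a b c d g : Fin 6}

theorem pt_per800 (V : ℂ) (t : ℝ) (n : ℤ) : pt V (t + 6 * n) = pt V t := by
  unfold pt cis
  congr 1
  rw [Complex.exp_eq_exp_iff_exists_int]
  refine ⟨n, ?_⟩
  push_cast
  ring

/-- **the two pairs are not both without plain ends** -/
theorem XG.not_both (X : XG U T) (hV : DPt T V a b c d) (hP : Pf T V a b) (hP' : Pf T V c d) :
    False := by
  obtain ⟨s, t, hst, hts, hI, -, hs, ht, hord⟩ := one_arc169 X.df.irr hV hP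
    fun y1 y2 y3 => X.n3 V y1 y2 y3 hV.ncard.ge
  obtain ⟨s', t', hst', hts', hI', -, hs', ht', -⟩ := one_arc169 X.df.irr hV.swap hP'
    fun y1 y2 y3 => X.n3 V y1 y2 y3 hV.ncard.ge
  have hne' : pt V s' ≠ pt V t' := H800.pt_ne hst' hts'
  rcases hord _ (dist_pt V s') hs'.1 with h1 | h1 <;>
    rcases hord _ (dist_pt V t') ht'.1 with h2 | h2
  · exact hne' (h1.trans h2.symm)
  · -- the same arc
    obtain ⟨n, hn⟩ := Vale.Agent.P032.S5.H349.pt_eq h1
    obtain ⟨m, hm⟩ := Vale.Agent.P032.S5.H349.pt_eq h2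
    have h3 : m = n := by
      have e1 : ((m - n : ℤ) : ℝ) < 1 := by push_cast; linarith
      have e2 : (-1 : ℝ) < ((m - n : ℤ) : ℝ) := by push_cast; linarith
      have e3 : m - n < 1 := by exact_mod_cast e1
      have e4 : -1 < m - n := by exact_mod_cast e2
      omega
    subst h3
    have h4 : (s' + t') / 2 = (s + t) / 2 + 6 * (m : ℝ) := by rw [hn, hm]; ring
    have h5 := hI' ((s' + t') / 2) ⟨by linarith, by linarith⟩
    rw [h4, pt_per800, hI ((s + t) / 2) ⟨by linarith, by linarith⟩] at h5
    have h6 : a ∈ ({c, d} : Set (Fin 6)) := by rw [← h5]; simp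
    rcases h6 with h6 | h6
    · exact hV.ac h6
    · exact hV.ad h6
  · obtain ⟨n, hn⟩ := Vale.Agent.P032.S5.H349.pt_eq h1
    obtain ⟨m, hm⟩ := Vale.Agent.P032.S5.H349.pt_eq h2
    have e1 : ((m - n : ℤ) : ℝ) < 1 := by push_cast; linarith
    have e2 : (0 : ℝ) < ((m - n : ℤ) : ℝ) := by push_cast; linarith
    have e3 : m - n < 1 := by exact_mod_cast e1
    have e4 : 0 < m - n := by exact_mod_cast e2
    omega
  · exact hne' (h1.trans h2.symm)

/-- **no point with three colours has both colours of the plain-free pair** -/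
theorem XG.strong (X : XG U T) (hV : DPt T V a b c d) (hP : Pf T V a b) {x : ℂ}
    (hx : dist x V = 1) (h3 : (T x).ncard = 3) (ha : a ∈ T x) : b ∉ T x := by
  intro hb
  refine X.not_both hV hP fun q hq hq3 hqc => ?_
  have h2 := closure_minimal XA_sub (EV_closed X.df.irr) hqc
  refine X.ns V x q hx hq hV.ncard h3 hq3 ?_
  rw [hV.pal]
  rintro i (rfl | rfl | rfl | hi)
  · exact Or.inl ha
  · exact Or.inl hb
  · exact Or.inr h2.2.1
  · rw [mem_singleton_iff] at hi
    rw [hi]
    exact Or.inr h2.2.2

end Vale.Agent.P032.H800
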