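import Vale.Agent.P032.H800.XR
import Vale.Agent.P032.H800.Typ

/-!
# P032, block X-A without covering pairs: the rows and the glue

World `XF U T` : `DF U T`, `NoComp T` and two points at distance one with at least four colours have
a common missing colour.  `V` a two-pair point with the pairs `{a, b}`, `{c, d}`.

Rows (propositions):
* `RowM` : one of the two pairs has no plain ends (`Pf`, H383);
* `RowH` : a limit of exact points of a pair without plain ends is not harmless;
* `RowA` : the exact points of a pair without plain ends are on one closed arc;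
* `RowL` : at a link with three colours of `V` the pair of the border has no plain ends;
* `RowK` : no link with three colours of `V` at the end of an arc of the other pair.

`qiw_of_rows` : from the five rows the world `QIW T Inv` (H961) for every relation `Inv` which contains
the harmless points and no two-pair points.
-/

open Set Filter Topology Metric

noncomputable section

namespace Vale.Agent.P032.H800

open Vale.Agent.P032.Six Vale.Agent.P032.S5.H767 Vale.Agent.P032.H961 Vale.Agent.P032.H383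

variable {U : Fin 6 → Set ℂ} {T : ℂ → Set (Fin 6)} {V y : ℂ} {a b c d g g' : Fin 6}

/-- the world without covering pairs -/
structure XF (U : Fin 6 → Set ℂ) (T : ℂ → Set (Fin 6)) : Prop where
  df : DF U T
  nc : NoComp T
  cv : ∀ z y, dist z y = 1 → 4 ≤ (T z).ncard → 4 ≤ (T y).ncard → ∃ i, i ∉ T z ∧ i ∉ T y

/-- row XL8: one of the two pairs has no plain ends -/
def RowM : Prop := ∀ (U : Fin 6 → Set ℂ) (T : ℂ → Set (Fin 6)), XF U T →
  ∀ V a b c d, DPt T V a b c d → Pf T V a b ∨ Pf T V c d

/-- row XL3: an end of an arc of a pair without plain ends is not harmless -/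
def RowH : Prop := ∀ (U : Fin 6 → Set ℂ) (T : ℂ → Set (Fin 6)), XF U T →
  ∀ V a b c d, DPt T V a b c d → Pf T V a b → ∀ y ∈ closure (XA T V a b), ∀ A, ¬ Six.Harm T y A

/-- rows XL4, XL5: the exact points of a pair without plain ends are on one arc -/
def RowA : Prop := ∀ (U : Fin 6 → Set ℂ) (T : ℂ → Set (Fin 6)), XF U T →
  ∀ V a b c d, DPt T V a b c d → Pf T V a b → ∃ s t : ℝ, s < t ∧
    (∀ w ∈ Ioo s t, T (pt V w) = {a, b}) ∧ ∀ y, dist y V = 1 → T y = {a, b} → y ∈ pt V '' Icc s t

/-- row XL6: at a `K`-link the pair of the border has no plain ends -/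
def RowL : Prop := ∀ (U : Fin 6 → Set ℂ) (T : ℂ → Set (Fin 6)), XF U T →
  ∀ V y a b c d g, DPt T V a b c d → Pf T V a b → dist y V = 1 → DPt T y a c b g → g ∉ T V →
    Pf T y a c

/-- row XL7: no `K`-link at the end of an arc of the other pair -/
def RowK : Prop := ∀ (U : Fin 6 → Set ℂ) (T : ℂ → Set (Fin 6)), XF U T →
  ∀ V y a b c d g, DPt T V a b c d → Pf T V a b → dist y V = 1 → DPt T y c a d g → g ∉ T V → False

/-- six colours -/
theorem six_of {e f : Fin 6} (nd : [a, b, c, d, e, f].Nodup) (i : Fin 6) :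
    i = a ∨ i = b ∨ i = c ∨ i = d ∨ i = e ∨ i = f := by
  by_contra hcon
  simp only [not_or] at hcon
  have h1 : ({a, b, c, d, e, f} : Finset (Fin 6)).card = 6 := by
    simp only [List.nodup_cons, List.mem_cons, List.not_mem_nil, or_false, not_or,
      List.nodup_nil, and_true, not_false_eq_true] at nd
    obtain ⟨⟨ab, ac, ad, ae, af⟩, ⟨bc, bd, be, bf⟩, ⟨cd, ce, cf⟩, ⟨de, df⟩, ef⟩ := nd
    rw [Finset.card_insert_of_notMem (by simp [ab, ac, ad, ae, af]),
      Finset.card_insert_of_notMem (by simp [bc, bd, be, bf]),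
      Finset.card_insert_of_notMem (by simp [cd, ce, cf]),
      Finset.card_insert_of_notMem (by simp [de, df]), Finset.card_pair ef]
  have h2 : ({a, b, c, d, e, f} : Finset (Fin 6)) = Finset.univ := by
    rw [← Finset.card_eq_iff_eq_univ, h1]; rfl
  have h3 := Finset.mem_univ i
  rw [← h2] at h3
  simp only [Finset.mem_insert, Finset.mem_singleton] at h3
  tauto

/-- a point of order four at distance one misses at most one of the colours of `V` -/
theorem miss_one (X : XF U T) (hV : DPt T V a b c d) (hy : dist y V = 1)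
    (h4 : 4 ≤ (T y).ncard) {p q : Fin 6} (hp : p ∈ T V) (hq : q ∈ T V) (hpq : p ≠ q) :
    p ∈ T y ∨ q ∈ T y := by
  by_contra hcon
  push Not at hcon
  obtain ⟨i, hi, hi'⟩ := X.cv V y (by rw [dist_comm]; exact hy) (by rw [hV.ncard]) h4
  have h1 : T y ⊆ ({p, q, i} : Set (Fin 6))ᶜ := by
    rintro j hj (rfl | rfl | hji)
    · exact hcon.1 hj
    · exact hcon.2 hj
    · rw [mem_singleton_iff] at hji
      exact hi' (hji ▸ hj)
  have h2 : ({p, q, i} : Set (Fin 6)).ncard = 3 := by
    have hpi : p ≠ i := fun h => hi (h ▸ hp)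
    have hqi : q ≠ i := fun h => hi (h ▸ hq)
    rw [Set.ncard_insert_of_notMem (by simp [hpq, hpi]), Set.ncard_pair hqi]
  have h3 := Set.ncard_le_ncard h1 (Set.toFinite _)
  have h5 : ({p, q, i} : Set (Fin 6))ᶜ.ncard = 3 := by
    rw [Set.ncard_compl, h2]
    simp
  omega

/-- a two-pair point of order four on `S(V)` with the colours `a`, `b` of a pair -/
theorem split (X : XF U T) (hV : DPt T V a b c d) (hy : dist y V = 1)
    {p q r s : Fin 6} (hD : DPt T y p q r s) (ha : a ∈ T y) (hb : b ∈ T y) :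
    ∃ g, (DPt T y a c b g ∨ DPt T y b d a g) ∨ (DPt T y a d b g ∨ DPt T y b c a g) := by
  have h4 : 4 ≤ (T y).ncard := by rw [hD.ncard]
  rcases miss_one X hV hy h4 (p := c) (q := d) (by rw [hV.pal]; simp) (by rw [hV.pal]; simp)
    hV.cd with hc | hd
  · rcases X.df.irr.k_border460 hV hy hD ha hb hc with ⟨e, he⟩ | ⟨e, he⟩
    · exact ⟨e, Or.inl (Or.inl he)⟩
    · exact ⟨e, Or.inr (Or.inr he)⟩
  · rcases X.df.irr.k_border460 hV.swap34 hy hD ha hb hd with ⟨e, he⟩ | ⟨e, he⟩
    · exact ⟨e, Or.inr (Or.inl he)⟩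
    · exact ⟨e, Or.inl (Or.inr he)⟩

/-- an end of the arc is a two-pair point at a border -/
theorem end_split (hH : RowH) (X : XF U T) (hV : DPt T V a b c d) (hP : Pf T V a b)
    (hy : y ∈ closure (XA T V a b)) (h4 : 4 ≤ (T y).ncard) :
    ∃ g, (DPt T y a c b g ∨ DPt T y b d a g) ∨ (DPt T y a d b g ∨ DPt T y b c a g) := by
  obtain ⟨h1, h2, h3⟩ := end_mem X.df.irr hV hP hy
  rcases X.df.harm_or h4 with ⟨A, hA⟩ | ⟨p, q, r, s, hD⟩
  · exact (hH U T X V a b c d hV hP y hy A hA).elim
  · exact split X hV h1 hD h2 h3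

/-- four coloured points outside the closed arc are harmless -/
theorem off_arc (hK : RowK) (X : XF U T) (hV : DPt T V a b c d) (hP : Pf T V a b)
    (hy : dist y V = 1) (h4 : 4 ≤ (T y).ncard) (hc : y ∉ closure (XA T V a b)) :
    ∃ A, Six.Harm T y A := by
  rcases X.df.harm_or h4 with hA | ⟨p, q, r, s, hD⟩
  · exact hA
  exfalso
  have haV : a ∈ T V := by rw [hV.pal]; simp
  have hbV : b ∈ T V := by rw [hV.pal]; simp
  have hcV : c ∈ T V := by rw [hV.pal]; simp
  have hdV : d ∈ T V := by rw [hV.pal]; simp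
  have key : ∀ {a b c d : Fin 6}, DPt T V a b c d → Pf T V a b → a ∈ T y → c ∈ T y → d ∈ T y →
      b ∉ T y → False := by
    intro a b c d hV hP ha hc hd hb
    rcases X.df.irr.k_border460 hV.swap hy hD hc hd ha with ⟨e, he⟩ | ⟨e, he⟩
    · refine hK U T X V y a b c d e hV hP hy he fun hcon => ?_
      rw [hV.pal] at hcon
      rcases hcon with rfl | rfl | rfl | hcon
      · exact he.bd rfl
      · exact hb (by rw [he.pal]; simp)
      · exact he.ad rfl
      · rw [mem_singleton_iff] at hcon
        exact he.cd hcon.symm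
    · refine hK U T X V y a b d c e hV.swap34 hP hy he fun hcon => ?_
      rw [hV.pal] at hcon
      rcases hcon with rfl | rfl | rfl | hcon
      · exact he.bd rfl
      · exact hb (by rw [he.pal]; simp)
      · exact he.cd rfl
      · rw [mem_singleton_iff] at hcon
        exact he.ad hcon.symm
  by_cases ha : a ∈ T y
  · by_cases hb : b ∈ T y
    · obtain ⟨e, he⟩ := split X hV hy hD ha hb
      exact hc (link_mem4 X.df.irr hV hy he)
    · exact key hV hP ha ((miss_one X hV hy h4 hbV hcV hV.bc).resolve_left hb)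
        ((miss_one X hV hy h4 hbV hdV hV.bd).resolve_left hb) hb
  · exact key hV.swap12 (Pf.symm hP) ((miss_one X hV hy h4 haV hbV hV.ab).resolve_left ha)
      ((miss_one X hV hy h4 haV hcV hV.ac).resolve_left ha)
      ((miss_one X hV hy h4 haV hdV hV.ad).resolve_left ha) ha

/-- the input of the generic glue -/
theorem rw_of_rows (hM : RowM) (hH : RowH) (hA : RowA) (hL : RowL) (hK : RowK)
    (X : XF U T) {Inv : ℂ → ℂ → Prop} (hI : ∀ V y A, Six.Harm T y A → Inv V y)
    (hI' : ∀ V y, Inv V y → ∀ a b c d, ¬ DPt T y a b c d) : Rw U T Inv where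
  irr := X.df.irr
  pf := fun hV => hM U T X _ _ _ _ _ hV
  spl := fun hV hP hy h4 => end_split hH X hV hP hy h4
  arc := fun hV hP => hA U T X _ _ _ _ _ hV hP
  typ := fun hV h1 _ h3 h4 h5 => typ800 X.df.irr hV h1 h3 h4 h5
  off := fun hV hP hy h4 hc => by
    obtain ⟨A, hA⟩ := off_arc hK X hV hP hy h4 hc
    exact hI _ _ A hA
  lnk := fun hV hP hy hD hg => hL U T X _ _ _ _ _ _ _ hV hP hy hD hg
  inv := fun h1 _ hD _ _ _ => hI' _ _ h1 _ _ _ _ hD

/-- **the world of quasi-full points from the five rows** -/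
theorem qiw_of_rows (hM : RowM) (hH : RowH) (hA : RowA) (hL : RowL) (hK : RowK)
    (X : XF U T) {Inv : ℂ → ℂ → Prop} (hI : ∀ V y A, Six.Harm T y A → Inv V y)
    (hI' : ∀ V y, Inv V y → ∀ a b c d, ¬ DPt T y a b c d) : QIW T Inv :=
  (rw_of_rows hM hH hA hL hK X hI hI').qiw

end Vale.Agent.P032.H800
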