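import Vale.Agent.P032.H800.XL
import Vale.Agent.P032.H416.XTop

/-!
# P032, block X-A without covering pairs, from the five rows of `XL.lean`
-/

noncomputable section

namespace Vale.Agent.P032.H800

open Vale.Agent.P032.Six

/-- the invisible points: the harmless ones -/
def HInv (T : ℂ → Set (Fin 6)) (_ y : ℂ) : Prop := ∃ A, Six.Harm T y A

/-- **`XLinksCovI` from the five rows** -/
theorem xLinksCovI_of (hM : RowM) (hH : RowH) (hA : RowA) (hL : RowL) (hK : RowK) :
    XLinksCovI HInv := fun _ _ h hN hC =>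
  qiw_of_rows hM hH hA hL hK ⟨h, hN, hC⟩ (fun _ _ A hA => ⟨A, hA⟩)
    fun _ _ ⟨_, hA⟩ _ _ _ _ hD => not_harm_of_dpt hA hD

end Vale.Agent.P032.H800
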