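import Vale.Agent.P032.H961.QI
import Vale.Agent.P032.H460.Link
import Vale.Agent.P032.H538.State1
import Vale.Agent.P032.S5.H496.Start

/-!
# P032, block X-A: the generic glue

`Rw U T Inv` : what has to be known at all the two-pair points of a frame (one of the two pairs has
no plain ends, `Pf`; the exact points of such a pair are on one arc whose ends are two-pair points at
borders of different types; the points of order at least four outside the closed arc are in `Inv`;
at a link the pair of the border has no plain ends).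
`Rw.qiw` : then `QIW T Inv` (H961).
-/

open Set Filter Topology Metric

noncomputable section

namespace Vale.Agent.P032.H800

open Vale.Agent.P032.Six Vale.Agent.P032.S5.H767 Vale.Agent.P032.H961 Vale.Agent.P032.H383

variable {U : Fin 6 → Set ℂ} {T : ℂ → Set (Fin 6)} {V y : ℂ} {a b c d g g' : Fin 6}
  {Inv : ℂ → ℂ → Prop}

/-- the input of the glue -/
structure Rw (U : Fin 6 → Set ℂ) (T : ℂ → Set (Fin 6)) (Inv : ℂ → ℂ → Prop) : Prop where
  irr : Irr U T
  pf : ∀ {V a b c d}, DPt T V a b c d → Pf T V a b ∨ Pf T V c d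
  spl : ∀ {V y a b c d}, DPt T V a b c d → Pf T V a b → y ∈ closure (XA T V a b) →
    4 ≤ (T y).ncard →
    ∃ g, (DPt T y a c b g ∨ DPt T y b d a g) ∨ (DPt T y a d b g ∨ DPt T y b c a g)
  arc : ∀ {V a b c d}, DPt T V a b c d → Pf T V a b → ∃ s t : ℝ, s < t ∧
    (∀ w ∈ Ioo s t, T (pt V w) = {a, b}) ∧ ∀ y, dist y V = 1 → T y = {a, b} → y ∈ pt V '' Icc s t
  typ : ∀ {V a b c d g g'} {s t : ℝ}, DPt T V a b c d → s < t → t ≤ s + 1 →
    (∀ w ∈ Ioo s t, T (pt V w) = {a, b}) → DPt T (pt V s) a c b g → DPt T (pt V t) b d a g' → False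
  off : ∀ {V y a b c d}, DPt T V a b c d → Pf T V a b → dist y V = 1 → 4 ≤ (T y).ncard →
    y ∉ closure (XA T V a b) → Inv V y
  lnk : ∀ {V y a b c d g}, DPt T V a b c d → Pf T V a b → dist y V = 1 → DPt T y a c b g →
    g ∉ T V → Pf T y a c
  inv : ∀ {V y a b c d}, Inv V y → dist y V = 1 → DPt T y a b c d → Pf T y a b → a ∈ T V →
    b ∈ T V → False

/-! ### exact points and sides -/

theorem XA_comm : XA T V a b = XA T V b a := by
  unfold XA; rw [Set.pair_comm]

theorem Pf.symm (h : Pf T V a b) : Pf T V b a := fun x h1 h2 h3 => h x h1 h2 (by rwa [XA_comm])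

/-- sides at an exact point, from the colours -/
theorem sd_of_inn (h : Irr U T) (hV : DPt T V a b c d) {w : ℂ} (hw : dist w V = 1)
    (hT : T w = {a, b})
    (hi : ∀ᶠ x in 𝓝 w, (b ∈ T x → 1 ≤ dist x V) ∧ (a ∈ T x → dist x V ≤ 1)) : Sd U V w a b := by
  rcases h.sides hV hw with hs | hs
  · exact hs
  · exfalso
    have h1 : ∀ᶠ x in 𝓝 w, ¬ dist x V < 1 := by
      filter_upwards [hs, hi, h.nhd w] with x k1 k2 k3 k4
      obtain ⟨i, hi⟩ := h.ne x
      have k5 := k3 hi
      rw [hT] at k5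
      rcases k5 with k5 | k5
      · exact k1.2 k4 (h.sub x (k5 ▸ hi))
      · rw [mem_singleton_iff] at k5
        exact absurd (k2.1 (k5 ▸ hi)) (not_le.2 k4)
    have h2 : w ∈ closure (ball V 1) := by
      rw [closure_ball V one_ne_zero]
      exact hw.le
    obtain ⟨x, hx, hx'⟩ := ((mem_closure_iff_frequently.1 h2).and_eventually h1).exists
    exact hx' hx

/-- colours near a point with given sides -/
theorem inn_of_sd (h : Irr U T) {w : ℂ} (hs : Sd U V w a b) :
    ∀ᶠ x in 𝓝 w, (b ∈ T x → 1 ≤ dist x V) ∧ (a ∈ T x → dist x V ≤ 1) := by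
  filter_upwards [hs] with x hx
  refine ⟨fun h1 => ?_, fun h1 => ?_⟩
  · by_contra h2
    exact hx.2 (not_le.1 h2) (h.sub x h1)
  · by_contra h2
    exact hx.1 (not_le.1 h2) (h.sub x h1)

/-- a limit of points with the sides `b a` has these sides, if it has the sides `a b` it is absurd -/
theorem sd_limit (h : Irr U T) {w : ℂ} (hw : w ∈ closure (XA T V a b))
    (hs : Sd U V w a b) (hn : ∀ x ∈ XA T V a b, Sd U V x b a) : False := by
  obtain ⟨x, hx, hx'⟩ := ((mem_closure_iff_frequently.1 hw).and_eventually hs.eventually460).exists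
  exact h.sd_unique (by rw [hx.2]; simp) hx' (hn x hx)

/-- **the sides are constant on the closed arc** -/
theorem sd_const (h : Irr U T) (hV : DPt T V a b c d) {s t : ℝ} (hst : s < t)
    (hA : ∀ w ∈ Ioo s t, T (pt V w) = {a, b}) {r : ℝ} (hr : r ∈ Icc s t)
    (hs : Sd U V (pt V r) a b) : ∀ w ∈ Icc s t, Sd U V (pt V w) a b := by
  have haV : a ∈ T V := by rw [hV.pal]; simp
  have hmem : ∀ w ∈ Icc s t, a ∈ T (pt V w) := by
    intro w hw
    have h1 : w ∈ closure (Ioo s t) := by rw [closure_Ioo hst.ne]; exact hw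
    have h2 : IsClosed {w : ℝ | a ∈ T (pt V w)} := (h.closed a).preimage (continuous_pt V)
    exact closure_minimal (fun v hv => by
      show a ∈ T (pt V v)
      rw [hA v hv]; simp) h2 h1
  have hop : ∀ i j : Fin 6, IsOpen {w : ℝ | Sd U V (pt V w) i j} := by
    intro i j
    rw [isOpen_iff_mem_nhds]
    intro w hw
    exact (continuous_pt V).continuousAt.eventually hw.eventually460
  by_contra hcon
  push Not at hcon
  obtain ⟨w, hw, hnw⟩ := hcon
  have hpre : IsPreconnected (Icc s t) := isPreconnected_Icc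
  obtain ⟨v, hv, h1, h2⟩ := hpre _ _ (hop a b) (hop b a) (fun v _ => h.sides hV (dist_pt V v))
    ⟨r, hr, hs⟩ ⟨w, hw, (h.sides hV (dist_pt V w)).resolve_left hnw⟩
  exact h.sd_unique (hmem v hv) h1 h2

/-! ### the ends of an arc of a pair without plain ends -/

/-- an end: four colours, among them `a`, `b` -/
theorem end_mem (h : Irr U T) (hV : DPt T V a b c d) (hP : Pf T V a b)
    (hy : y ∈ closure (XA T V a b)) : dist y V = 1 ∧ a ∈ T y ∧ b ∈ T y :=
  ⟨(closure_cases h hV hP hy).1.1, (closure_cases h hV hP hy).1.2.1,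
    (closure_cases h hV hP hy).1.2.2⟩

/-- a limit of points of a half branch -/
theorem mem_closure_hb {z v : ℂ} {τ : ℝ} {S : Set ℂ} (h : ∀ᶠ t : ℝ in 𝓝[>] 0, hb z v τ t ∈ S) :
    v ∈ closure S :=
  mem_closure_of_tendsto (tendsto_hb z v τ) h

/-- **a link at a border of `V` is an end of an exact arc** -/
theorem link_mem (h : Irr U T) (hV : DPt T V a b c d) (hy : dist y V = 1)
    (hD : DPt T y a c b g) : y ∈ closure (XA T V a b) := by
  obtain ⟨τ, σ, -, -, h1, -⟩ := h.link460 hV hD hy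
  exact mem_closure_hb (h1.mono fun t ht => ⟨dist_hb hy τ t, ht⟩)

/-- the other side of the link -/
theorem link_mem' (h : Irr U T) (hV : DPt T V a b c d) (hy : dist y V = 1)
    (hD : DPt T y a c b g) : V ∈ closure (XA T y a c) := by
  obtain ⟨τ, σ, -, -, -, -, h1, -⟩ := h.link460 hV hD hy
  have hy' : dist V y = 1 := by rw [dist_comm]; exact hy
  exact mem_closure_hb (h1.mono fun t ht => ⟨dist_hb hy' σ t, ht⟩)

/-- a link at one of the four borders is an end of an exact `ab`-arc -/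
theorem link_mem4 (h : Irr U T) (hV : DPt T V a b c d) (hy : dist y V = 1)
    (hD : (DPt T y a c b g ∨ DPt T y b d a g) ∨ (DPt T y a d b g ∨ DPt T y b c a g)) :
    y ∈ closure (XA T V a b) := by
  rcases hD with (hD | hD) | (hD | hD)
  · exact link_mem h hV hy hD
  · rw [XA_comm]
    exact link_mem h hV.swap12.swap34 hy hD
  · exact link_mem h hV.swap34 hy hD
  · rw [XA_comm]
    exact link_mem h hV.swap12 hy hD

/-- sides of a link -/
theorem link_sd (h : Irr U T) (hV : DPt T V a b c d) (hy : dist y V = 1)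
    (hD : DPt T y a c b g) (hs : Sd U V y a b) : Sd U y V a c := by
  obtain ⟨τ, σ, -, -, -, -, -, -, ⟨-, -, h1⟩ | ⟨-, h1, -⟩⟩ := h.link460 hV hD hy
  · exact h1
  · exact (h.sd_unique (by rw [hD.pal]; simp) hs h1).elim

/-- sides of a link, the other alternative -/
theorem link_sd' (h : Irr U T) (hV : DPt T V a b c d) (hy : dist y V = 1)
    (hD : DPt T y a c b g) (hs : Sd U V y b a) : Sd U y V c a := by
  obtain ⟨τ, σ, -, -, -, -, -, -, ⟨-, h1, -⟩ | ⟨-, -, h1⟩⟩ := h.link460 hV hD hy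
  · exact (h.sd_unique (by rw [hD.pal]; simp) h1 hs).elim
  · exact h1

/-! ### the arc -/

/-- the maximal arc of a pair without plain ends carries all the exact points -/
theorem Rw.arc_of (R : Rw U T Inv) (hV : DPt T V a b c d) (hP : Pf T V a b) :
    ∃ s t : ℝ, s < t ∧ t ≤ s + 1 ∧ (∀ w ∈ Ioo s t, T (pt V w) = {a, b}) ∧
      4 ≤ (T (pt V s)).ncard ∧ 4 ≤ (T (pt V t)).ncard ∧
      ∀ y, dist y V = 1 → T y = {a, b} → y ∈ pt V '' Icc s t := by
  obtain ⟨s1, t1, h1, h2, h3⟩ := R.arc hV hP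
  obtain ⟨u, hu1, hu2⟩ := exists_between h1
  obtain ⟨s, t, g1, g2, g3, g4, g5, g6⟩ := exists_arc R.irr hV hP (h2 u ⟨hu1, hu2⟩)
  refine ⟨s, t, g1.trans g2, g3, g4, g5.1, g6.1, fun y hy hT => ?_⟩
  obtain ⟨w, hw, rfl⟩ := h3 y hy hT
  have k : ∀ r, 4 ≤ (T (pt V r)).ncard → r ∉ Ioo s1 t1 := by
    intro r h4 hr
    rw [h2 r hr, Set.ncard_pair hV.ab] at h4
    omega
  have hs : s ≤ s1 := by
    by_contra hcon
    push Not at hcon
    exact k s g5.1 ⟨hcon, by linarith⟩
  have ht : t1 ≤ t := by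
    by_contra hcon
    push Not at hcon
    exact k t g6.1 ⟨by linarith, hcon⟩
  exact ⟨w, ⟨hs.trans hw.1, hw.2.trans ht⟩, rfl⟩

theorem closure_sub {s t : ℝ} (hall : ∀ y, dist y V = 1 → T y = {a, b} → y ∈ pt V '' Icc s t) :
    closure (XA T V a b) ⊆ pt V '' Icc s t :=
  closure_minimal (fun y hy => hall y hy.1 hy.2) (isCompact_Icc.image (continuous_pt V)).isClosed

theorem end_in {s t r : ℝ} (hst : s < t) (hA : ∀ w ∈ Ioo s t, T (pt V w) = {a, b})
    (hr : r ∈ Icc s t) : pt V r ∈ closure (XA T V a b) := by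
  have h1 : r ∈ closure (Ioo s t) := by rw [closure_Ioo hst.ne]; exact hr
  have h2 := image_closure_subset_closure_image (continuous_pt V) (mem_image_of_mem (pt V) h1)
  refine closure_mono ?_ h2
  rintro _ ⟨v, hv, rfl⟩
  exact ⟨dist_pt V v, hA v hv⟩

/-- a point of order at least four of the closed arc is an end -/
theorem is_end {s t : ℝ} (hab : a ≠ b) (hA : ∀ w ∈ Ioo s t, T (pt V w) = {a, b})
    (hall : ∀ y, dist y V = 1 → T y = {a, b} → y ∈ pt V '' Icc s t)
    (hy : y ∈ closure (XA T V a b)) (h4 : 4 ≤ (T y).ncard) : y = pt V s ∨ y = pt V t := by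
  obtain ⟨r, hr, rfl⟩ := closure_sub hall hy
  rcases eq_or_lt_of_le hr.1 with h1 | h1
  · exact Or.inl (by rw [h1])
  rcases eq_or_lt_of_le hr.2 with h2 | h2
  · exact Or.inr (by rw [h2])
  rw [hA r ⟨h1, h2⟩, Set.ncard_pair hab] at h4
  omega

theorem pt_ne {s t : ℝ} (hst : s < t) (hts : t ≤ s + 1) : pt V s ≠ pt V t := by
  intro h
  obtain ⟨n, hn⟩ := Vale.Agent.P032.S5.H349.pt_eq h
  have h1 : (n : ℝ) < 0 := by linarith
  have h2 : (-1 : ℝ) < n := by linarith
  have h3 : n < 0 := by exact_mod_cast h1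
  have h4 : -1 < n := by exact_mod_cast h2
  omega

/-- **the two ends of the arc are at borders of different types** -/
theorem Rw.types (R : Rw U T Inv) (hV : DPt T V a b c d) {s t : ℝ} (hst : s < t)
    (hts : t ≤ s + 1) (hA : ∀ w ∈ Ioo s t, T (pt V w) = {a, b})
    (h1 : DPt T (pt V s) a c b g ∨ DPt T (pt V s) b d a g)
    (h2 : DPt T (pt V t) a c b g' ∨ DPt T (pt V t) b d a g') : False := by
  have hne := pt_ne (V := V) hst hts
  rcases h1 with h1 | h1 <;> rcases h2 with h2 | h2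
  · exact hne (R.irr.border_uniq460 hV (dist_pt V s) (dist_pt V t) h1 h2)
  · exact R.typ hV hst hts hA h1 h2
  · exact R.typ hV.swap12.swap34 hst hts
      (fun w hw => by rw [hA w hw, Set.pair_comm]) h1 h2
  · exact hne (R.irr.border_uniq460 hV.swap12.swap34 (dist_pt V s) (dist_pt V t) h1 h2)

/-- **the record of a quasi-full point with a given second end** -/
theorem Rw.mk' (R : Rw U T Inv) {Y : ℂ} (hV : DPt T V a b c d) (hP : Pf T V a b)
    (hY : dist Y V = 1) (hYD : DPt T Y a d b g ∨ DPt T Y c b a g) (hs : Sd U V Y a b) :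
    ∃ e f W, QI T Inv V a b c d e f W Y := by
  obtain ⟨e, f, nd⟩ := hV.exists_nodup
  obtain ⟨s, t, hst, hts, hIoo, h4s, h4t, hall⟩ := R.arc_of hV hP
  have hYD' : DPt T Y a d b g ∨ DPt T Y b c a g := hYD.imp_right DPt.swap12
  have hYc : Y ∈ closure (XA T V a b) := link_mem4 R.irr hV hY (Or.inr hYD')
  have hY4 : 4 ≤ (T Y).ncard := by
    rcases hYD with hD | hD <;> rw [hD.ncard]
  have hcs : pt V s ∈ closure (XA T V a b) := end_in hst hIoo (left_mem_Icc.2 hst.le)
  have hct : pt V t ∈ closure (XA T V a b) := end_in hst hIoo (right_mem_Icc.2 hst.le)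
  -- the record for the two ends `W`, `Y`
  have key : ∀ W, (W = pt V t ∧ Y = pt V s ∨ W = pt V s ∧ Y = pt V t) →
      ((∃ g, DPt T W a c b g ∨ DPt T W b d a g)) → QI T Inv V a b c d e f W Y := by
    intro W hW hWD
    refine ⟨⟨nd, hV, ⟨s, t, hst, hts, hW, hIoo, hall⟩, ?_, ⟨g, hYD⟩, ?_⟩, ?_⟩
    · obtain ⟨g, hg⟩ := hWD
      exact ⟨g, hg.imp_right DPt.swap12⟩
    · intro y hy h4
      by_cases hc : y ∈ closure (XA T V a b)
      · rcases is_end hV.ab hIoo hall hc h4 with h1 | h1 <;> rcases hW with ⟨h2, h3⟩ | ⟨h2, h3⟩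
        · exact Or.inr (Or.inl (h1.trans h3.symm))
        · exact Or.inl (h1.trans h2.symm)
        · exact Or.inl (h1.trans h2.symm)
        · exact Or.inr (Or.inl (h1.trans h3.symm))
      · exact Or.inr (Or.inr (R.off hV hP hy h4 hc))
    · intro y hy hTy
      obtain ⟨r, hr, rfl⟩ := hall y hy hTy
      refine inn_of_sd R.irr ?_
      rcases hW with ⟨-, h3⟩ | ⟨-, h3⟩
      · exact sd_const R.irr hV hst hIoo (left_mem_Icc.2 hst.le) (h3 ▸ hs) r hr
      · exact sd_const R.irr hV hst hIoo (right_mem_Icc.2 hst.le) (h3 ▸ hs) r hr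
  have hA' : ∀ w ∈ Ioo s t, T (pt V w) = {a, b} := hIoo
  rcases is_end hV.ab hIoo hall hYc hY4 with hYs | hYt
  · obtain ⟨g', hg' | hg'⟩ := R.spl hV hP hct h4t
    · exact ⟨e, f, pt V t, key _ (Or.inl ⟨rfl, hYs⟩) ⟨g', hg'⟩⟩
    · exact (R.types hV.swap34 hst hts hIoo (hYs ▸ hYD') hg').elim
  · obtain ⟨g', hg' | hg'⟩ := R.spl hV hP hcs h4s
    · exact ⟨e, f, pt V s, key _ (Or.inr ⟨rfl, hYt⟩) ⟨g', hg'⟩⟩
    · exact (R.types hV.swap34 hst hts hIoo hg' (hYt ▸ hYD')).elim

/-- existence of the record, for a pair without plain ends -/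
theorem Rw.exists_qi (R : Rw U T Inv) (hV : DPt T V a b c d) (hP : Pf T V a b) : ∃ (a b m n e f : Fin 6) (V1 V2 : ℂ), QI T Inv V a b m n e f V1 V2 := by
  obtain ⟨s, t, hst, hts, hIoo, h4s, h4t, hall⟩ := R.arc_of hV hP
  have hcs : pt V s ∈ closure (XA T V a b) := end_in hst hIoo (left_mem_Icc.2 hst.le)
  have hd := dist_pt V s
  obtain ⟨g, hg⟩ := R.spl hV hP hcs h4s
  rcases R.irr.sides hV hd with hs | hs
  · rcases hg with hg | hg
    · obtain ⟨e, f, W, hQ⟩ := R.mk' hV.swap34 hP hd (hg.imp_right DPt.swap12) hs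
      exact ⟨_, _, _, _, _, _, _, _, hQ⟩
    · obtain ⟨e, f, W, hQ⟩ := R.mk' hV hP hd (hg.imp_right DPt.swap12) hs
      exact ⟨_, _, _, _, _, _, _, _, hQ⟩
  · rcases hg with hg | hg
    · obtain ⟨e, f, W, hQ⟩ := R.mk' (g := g) hV.swap12 (Pf.symm hP) hd
        (hg.symm.imp_right DPt.swap12) hs
      exact ⟨_, _, _, _, _, _, _, _, hQ⟩
    · obtain ⟨e, f, W, hQ⟩ := R.mk' (g := g) hV.swap12.swap34 (Pf.symm hP) hd
        (hg.symm.imp_right DPt.swap12) hs
      exact ⟨_, _, _, _, _, _, _, _, hQ⟩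

/-! ### the link -/

/-- the pair of a record has no plain ends -/
theorem pf_of_qi {m n e f : Fin 6} {V1 V2 : ℂ}
    (hQ : QI T Inv V a b m n e f V1 V2) : Pf T V a b := by
  intro x hx h3 hcl
  obtain ⟨s, t, hst, hts, hW, hIoo, hall⟩ := hQ.arc
  obtain ⟨r, hr, rfl⟩ := closure_sub hall hcl
  have k1 := hQ.ord1
  have k2 := hQ.ord2
  rcases eq_or_lt_of_le hr.1 with h1 | h1
  · subst h1
    rcases hW with ⟨-, h4⟩ | ⟨h4, -⟩
    · rw [h4] at k2; omega
    · rw [h4] at k1; omega
  rcases eq_or_lt_of_le hr.2 with h2 | h2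
  · subst h2
    rcases hW with ⟨h4, -⟩ | ⟨-, h4⟩
    · rw [h4] at k1; omega
    · rw [h4] at k2; omega
  rw [hIoo r ⟨h1, h2⟩, Set.ncard_pair hQ.dpt.ab] at h3
  omega

/-- the sides at the first end -/
theorem sd_of_qi (h : Irr U T) {m n e f : Fin 6} {V1 V2 : ℂ}
    (hQ : QI T Inv V a b m n e f V1 V2) : Sd U V V1 a b := by
  obtain ⟨s, t, hst, hts, hW, hIoo, hall⟩ := hQ.arc
  have hcl : V1 ∈ closure (XA T V a b) := by
    rcases hW with ⟨h4, -⟩ | ⟨h4, -⟩ <;> rw [h4]
    · exact end_in hst hIoo (right_mem_Icc.2 hst.le)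
    · exact end_in hst hIoo (left_mem_Icc.2 hst.le)
  rcases h.sides hQ.dpt hQ.dist1 with hs | hs
  · exact hs
  · exfalso
    rw [XA_comm] at hcl
    refine sd_limit h hcl hs fun x hx => ?_
    rw [XA_comm] at hx
    exact sd_of_inn h hQ.dpt hx.1 hx.2 (hQ.inn x hx.1 hx.2)

/-- **the link at the first end** -/
theorem Rw.link_of (R : Rw U T Inv)
    {m n e f : Fin 6} {V1 V2 : ℂ} (hQ : QI T Inv V a b m n e f V1 V2) :
    LinkI T Inv V a b m n V1 := by
  have hP := pf_of_qi hQ
  have hs := sd_of_qi R.irr hQ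
  have hV := hQ.dpt
  have hd := hQ.dist1
  have hd' : dist V V1 = 1 := by rw [dist_comm]; exact hd
  -- STAY
  have stay : ∀ g, DPt T V1 a m b g → Pf T V1 a m → LinkI T Inv V a b m n V1 := by
    intro g hD hP1
    obtain ⟨e', f', W, hQ1⟩ := R.mk' hD.swap34 hP1 hd' (Or.inl hV)
      (link_sd R.irr hV hd hD hs)
    exact ⟨g, e', f', W, Or.inl hQ1⟩
  -- SWITCH
  have switch : ∀ g, DPt T V1 n b a g → Pf T V1 n b → LinkI T Inv V a b m n V1 := by
    intro g hD hP1
    obtain ⟨e', f', W, hQ1⟩ := R.mk' hD hP1 hd' (Or.inr hV.swap34)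
      (link_sd' R.irr hV.swap12.swap34 hd hD.swap12 hs)
    exact ⟨g, e', f', W, Or.inr hQ1⟩
  obtain ⟨g, hD | hD⟩ := hQ.lk1
  · by_cases hg : g ∈ T V
    · have hgn : g = n := by
        rw [hV.pal] at hg
        rcases hg with rfl | rfl | rfl | hg
        · exact (hD.ad rfl).elim
        · exact (hD.cd rfl).elim
        · exact (hD.bd rfl).elim
        · exact hg
      subst hgn
      rcases R.pf hD with h1 | h1
      · exact stay g hD h1
      · exact switch m hD.swap.swap12 (Pf.symm h1)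
    · exact stay g hD (R.lnk hV hP hd hD hg)
  · by_cases hg : g ∈ T V
    · have hgm : g = m := by
        rw [hV.pal] at hg
        rcases hg with rfl | rfl | hg | hg
        · exact (hD.cd rfl).elim
        · exact (hD.bd rfl).elim
        · exact hg
        · rw [mem_singleton_iff] at hg
          exact (hD.ad hg.symm).elim
      subst hgm
      rcases R.pf hD with h1 | h1
      · exact switch g hD h1
      · exact stay n hD.swap.swap34 h1
    · exact switch g hD (Pf.symm (R.lnk hV.swap12.swap34 (Pf.symm hP) hd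
        hD.swap12 hg))

/-- **the world of quasi-full points** -/
theorem Rw.qiw (R : Rw U T Inv) : QIW T Inv where
  qf := fun {V a b c d} hV => by
    rcases R.pf hV with hP | hP
    · exact R.exists_qi hV hP
    · exact R.exists_qi hV.swap hP
  link := fun hQ => R.link_of hQ
  inv := fun h1 hd hQ ha hb => R.inv h1 hd hQ.dpt (pf_of_qi hQ) ha hb

end Vale.Agent.P032.H800
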