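import Vale.Agent.P032.H416.Props
import Vale.Agent.P032.H802.ChainI
import Vale.Agent.P032.H274.XC
import Vale.Agent.P032.H484.RodStay

/-!
# P032: the skeleton of block X

`XB` (no frame `DF` with `NoComp`) from
* a world predicate `W U T Inv` (row X-A) with `QIW T Inv`,
* the linear facts in every window of eight links of a chain (row X-B),
* the end of the all-STAY chain (row X-D), with the closed polygon.

The finite row X-C is `H274.ChW.pure`, the all-SWITCH chain is dead by `ChI.no_switchR802`.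
-/

open Set Filter Topology Metric

noncomputable section

namespace Vale.Agent.P032.H800

open Vale.Agent.P032.Six Vale.Agent.P032.H961 Vale.Agent.P032.H484 Vale.Agent.P032.H274

/-- a world predicate -/
abbrev Wd := (Fin 6 → Set ℂ) → (ℂ → Set (Fin 6)) → (ℂ → ℂ → Prop) → Prop

/-- **row X-A**: every frame is in the world `W` -/
def XA (W : Wd) : Prop := ∀ (U : Fin 6 → Set ℂ) (T : ℂ → Set (Fin 6)), DF U T → NoComp T →
  (∃ z a b c d, DPt T z a b c d) → ∃ Inv, W U T Inv ∧ QIW T Inv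

/-- **row X-B**: the linear facts in every window of eight links -/
def XBW (W : Wd) : Prop := ∀ (U : Fin 6 → Set ℂ) (T : ℂ → Set (Fin 6)) (Inv : ℂ → ℂ → Prop),
  DF U T → NoComp T → W U T Inv → QIW T Inv → ∀ (V : ℤ → ℂ) (l : ℤ → Fin 6)
    (name : ℤ → Fin 6 → Fin 6), ChI nxR802 T Inv V l name →
    ∀ a : ℤ, ∃ N, Win 8 (fun i : ℕ => ((l (a + i) : Fin 6) : ℕ)) N

/-- an all-STAY chain with its closed polygon -/
structure StayP (U : Fin 6 → Set ℂ) (T : ℂ → Set (Fin 6)) (Inv : ℂ → ℂ → Prop) (V : ℤ → ℂ)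
    (l : ℤ → Fin 6) (name : ℤ → Fin 6 → Fin 6) (ρ : ℕ → ℝ) (n : ℕ) : Prop where
  ch : ChI nxR802 T Inv V l name
  two : ∀ j, l j = 2
  inner : ∀ j, name j 0 = name 0 0
  kch : KCh T (fun i : ℕ => V i) ρ fun i : ℕ => {name i 0, name i 1}
  sgn : ∃ τ : ℝ, ∀ i, 0 < τ * (ρ (i + 1) - ρ i)
  odd : Odd n
  per : ∀ i : ℕ, V ((i + 1 + n : ℕ) : ℤ) = V ((i + 1 : ℕ) : ℤ)
  poly : ∃ α β, Poly U (name 0 0) n (zV n fun i : ℕ => V i) α β
  tl : ∀ x, x ∈ Tl (zV n fun i : ℕ => V i) ↔ ∀ i : ℕ, dist x (V ((i + 1 : ℕ) : ℤ)) ≤ 1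

/-- **row X-D**: there is no all-STAY chain -/
def XD (W : Wd) : Prop := ∀ (U : Fin 6 → Set ℂ) (T : ℂ → Set (Fin 6)) (Inv : ℂ → ℂ → Prop),
  DF U T → NoComp T → W U T Inv → QIW T Inv → ∀ (V : ℤ → ℂ) (l : ℤ → Fin 6)
    (name : ℤ → Fin 6 → Fin 6) (ρ : ℕ → ℝ) (n : ℕ), StayP U T Inv V l name ρ n → False

variable {U : Fin 6 → Set ℂ} {T : ℂ → Set (Fin 6)} {Inv : ℂ → ℂ → Prop} {V : ℤ → ℂ}
  {l : ℤ → Fin 6} {name : ℤ → Fin 6 → Fin 6}

/-- the two-pair points are finite in discs -/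
theorem fin_ball (h : DF U T) (c : ℂ) (r : ℝ) :
    ({z | ∃ a b c d, DPt T z a b c d} ∩ closedBall c r).Finite :=
  (h.fin c r).subset fun _ hx => ⟨mem_closedBall.1 hx.2, hx.1⟩

/-- **the polygon of an all-STAY chain** -/
theorem exists_stayP (h : DF U T) (hw : QIW T Inv) (Z : ChI nxR802 T Inv V l name)
    (hl : ∀ j, l j = 2) : ∃ ρ n, StayP U T Inv V l name ρ n := by
  obtain ⟨ρ, J⟩ := Z.exists_kch h.irr hw
  have hl' : ∀ j, l j = 0 ∨ l j = 1 ∨ l j = 2 := fun j => Or.inr (Or.inr (hl j))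
  obtain ⟨h0, h1⟩ := Z.stayR802 h.irr hl' J
  have hsgn : ∃ τ : ℝ, ∀ i, 0 < τ * (ρ (i + 1) - ρ i) := by
    refine ⟨ρ 1 - ρ 0, fun i => ?_⟩
    induction i with
    | zero =>
      have h2 : ρ 1 - ρ 0 ≠ 0 := fun h3 => by
        have h4 := h1 0
        simp only [zero_add] at h4
        rw [h3, zero_mul] at h4
        exact lt_irrefl _ h4
      simpa using mul_self_pos.2 h2
    | succ i ih =>
      have h2 := mul_pos ih (h1 i)
      have h3 : (ρ 1 - ρ 0) * (ρ (i + 1) - ρ i) * ((ρ (i + 1) - ρ i) * (ρ (i + 2) - ρ (i + 1))) =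
        (ρ (i + 1) - ρ i) ^ 2 * ((ρ 1 - ρ 0) * (ρ (i + 2) - ρ (i + 1))) := by ring
      rw [h3] at h2
      exact (pos_iff_pos_of_mul_pos h2).1 (by
        have h4 : ρ (i + 1) - ρ i ≠ 0 := fun h5 => by
          rw [h5, mul_zero] at ih
          exact lt_irrefl _ ih
        positivity)
  obtain ⟨τ, hτ⟩ := hsgn
  have hcol : ∀ i : ℕ, ∀ θ ∈ uIcc (ρ i) (ρ (i + 1)),
      name 0 0 ∈ Pal U (arcPt (fun i : ℕ => V i) i θ) := by
    intro i θ hθ
    have h2 : name 0 0 ∈ T (arcPt (fun i : ℕ => V i) i θ) :=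
      J.mem_arc h.irr (x := name 0 0) (fun i => by
        have h3 := h0 ((i + 1 : ℕ) : ℤ)
        rw [← h3]
        exact Or.inl rfl) i θ hθ
    exact h.irr.sub _ h2
  have hVE : ∀ i : ℕ, V i ∈ {z | ∃ a b c d, DPt T z a b c d} := fun i =>
    ⟨_, _, _, _, (Z.qf i).dpt⟩
  obtain ⟨n, hn, hper, hpoly, htl⟩ := stay_poly_fin (g := name 0 0) J.rods h.irr hτ
    (fun c r => fin_ball h c r) hVE hcol
  exact ⟨ρ, n, Z, hl, h0, J, ⟨τ, hτ⟩, hn, fun i => (hper i).1, hpoly, htl⟩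

/-- **No frame with a two-pair point**, from the rows X-B and X-D. -/
theorem no_frame_of {W : Wd} (HB : XBW W) (HD : XD W) (h : DF U T) (hN : NoComp T)
    (hW : W U T Inv) (hw : QIW T Inv) {z : ℂ} {a b c d : Fin 6} (hD : DPt T z a b c d) : False := by
  obtain ⟨V, l, name, Z, -⟩ := exists_chIR hw hD
  have hc : ChW (fun j => ((l j : Fin 6) : ℕ)) :=
    ⟨fun j => (l j).isLt, fun a => HB U T Inv h hN hW hw V l name Z a⟩
  rcases hc.pure with h2 | h5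
  · have hl : ∀ j, l j = 2 := fun j => Fin.ext (h2 j)
    obtain ⟨ρ, n, S⟩ := exists_stayP h hw Z hl
    exact HD U T Inv h hN hW hw V l name ρ n S
  · have hl : ∀ j, l j = 3 ∨ l j = 4 ∨ l j = 5 := fun j => Or.inr (Or.inr (Fin.ext (h5 j)))
    exact Z.no_switchR802 h.irr hw hl fun R => fin_ball h 0 R

end Vale.Agent.P032.H800
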